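import Mathlib

/-!
Shortest common superstring: definitions used in the statement.
-/

namespace Vale.Agent.P333

/-- `T` is a common superstring of the family `S`: every member is a contiguous substring. -/
def IsSuperstring (S : List (List ℕ)) (T : List ℕ) : Prop := ∀ s ∈ S, s <:+: T

/-- The minimum length of a common superstring. -/
noncomputable def opt (S : List (List ℕ)) : ℕ :=
  sInf {n | ∃ T, IsSuperstring S T ∧ T.length = n}

/-- Self-delimiting binary code of a list: each item is preceded by `1`, the end is `0`. -/
def codeList {α : Type} (f : α → List Bool) (l : List α) : List Bool :=
  (l.flatMap fun a => true :: f a) ++ [false]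

/-- Code of a bit. -/
def codeBit (b : Bool) : List Bool := if b then [true, false, false] else [false]

/-- Code of a letter: the list of its binary digits. -/
def codeLetter (n : ℕ) : List Bool := codeList codeBit n.bits

/-- Code of a string. -/
def codeString (w : List ℕ) : List Bool := codeList codeLetter w

/-- Code of an instance. -/
def codeInstance (S : List (List ℕ)) : List Bool := codeList codeString S

end Vale.Agent.P333
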