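import Vale.Agent.P333.Word

/-!
Occurrence counts in a superstring and the validity of the periodicity rule.
-/

namespace Vale.Agent.P333

/-- Sum over left extensions. -/
def lsum (A : List ℕ) (f : List ℕ → ℕ) (v : List ℕ) : ℕ := (A.map fun a => f (a :: v)).sum

/-- Sum over right extensions. -/
def rsum (A : List ℕ) (f : List ℕ → ℕ) (v : List ℕ) : ℕ := (A.map fun a => f (v ++ [a])).sum

/-- Number of occurrences. -/
def cnt : List ℕ → List ℕ → ℕ
  | [], v => if v <+: [] then 1 else 0
  | a :: T, v => (if v <+: a :: T then 1 else 0) + cnt T v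

theorem sum_map_le {A : List ℕ} {f g : ℕ → ℕ} (h : ∀ a ∈ A, f a ≤ g a) :
    (A.map f).sum ≤ (A.map g).sum := List.sum_le_sum h

theorem le_of_sum_le {A : List ℕ} {f g : ℕ → ℕ} (h : ∀ a ∈ A, f a ≤ g a)
    (h2 : (A.map g).sum ≤ (A.map f).sum) : ∀ a ∈ A, g a ≤ f a := by
  induction A with
  | nil => simp
  | cons b A ih =>
    have h3 := sum_map_le fun a ha => h a (List.mem_cons_of_mem _ ha)
    have h4 := h b List.mem_cons_self
    simp only [List.map_cons, List.sum_cons] at h2
    intro a ha
    rcases List.mem_cons.1 ha with rfl | ha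
    · omega
    · exact ih (fun a ha => h a (List.mem_cons_of_mem _ ha)) (by omega) a ha

theorem sum_split {A : List ℕ} (hA : A.Nodup) {f g : ℕ → ℕ} {b : ℕ} (hb : b ∈ A)
    (h : ∀ a ∈ A, a ≠ b → f a = g a) : (A.map f).sum + g b = (A.map g).sum + f b := by
  rw [← List.sum_toFinset _ hA, ← List.sum_toFinset _ hA,
    ← Finset.add_sum_erase _ f (List.mem_toFinset.2 hb),
    ← Finset.add_sum_erase _ g (List.mem_toFinset.2 hb),
    Finset.sum_congr rfl (fun a ha => h a (by simp at ha; exact ha.2) (by simp at ha; exact ha.1))]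
  ring

theorem sum_ite_le {A : List ℕ} (hA : A.Nodup) (P : ℕ → Prop) [DecidablePred P] (Q : Prop)
    [Decidable Q] (h1 : ∀ a, P a → Q) (h2 : ∀ a b, P a → P b → a = b) :
    (A.map fun a => if P a then 1 else 0).sum ≤ if Q then 1 else 0 := by
  rw [← List.sum_toFinset _ hA, ← Finset.card_filter]
  split_ifs with h
  · exact Finset.card_le_one.2 fun a ha b hb =>
      h2 a b (Finset.mem_filter.1 ha).2 (Finset.mem_filter.1 hb).2
  · rw [Nat.le_zero, Finset.card_eq_zero, Finset.filter_eq_empty_iff]
    exact fun a _ ha => h (h1 a ha)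

theorem cnt_lsum {A : List ℕ} (hA : A.Nodup) {T : List ℕ} (hT : ∀ a ∈ T, a ∈ A) (v : List ℕ) :
    cnt T v = lsum A (cnt T) v + if v <+: T then 1 else 0 := by
  induction T with
  | nil => simp [cnt, lsum]
  | cons x T ih =>
    have h1 := ih fun a ha => hT a (List.mem_cons_of_mem _ ha)
    have h2 := sum_split hA (f := fun a => cnt (x :: T) (a :: v)) (g := fun a => cnt T (a :: v))
      (hT x List.mem_cons_self) (fun a _ ha => by simp [cnt, List.cons_prefix_cons, ha])
    simp only [cnt, List.cons_prefix_cons, true_and, lsum] at h1 h2 ⊢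
    omega

theorem rsum_cnt_le {A : List ℕ} (hA : A.Nodup) (T v : List ℕ) : rsum A (cnt T) v ≤ cnt T v := by
  have key : ∀ T : List ℕ,
      (A.map fun a => if v ++ [a] <+: T then 1 else 0).sum ≤ if v <+: T then 1 else 0 := fun T =>
    sum_ite_le hA _ _ (fun a ha => (List.prefix_append _ _).trans ha) (fun a b ha hb => by
      have := List.prefix_of_prefix_length_le ha hb (by simp)
      simpa using this.eq_of_length (by simp))
  induction T with
  | nil => exact key []
  | cons x T ih =>
    have := key (x :: T)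
    simp only [cnt, rsum, List.sum_map_add] at ih ⊢
    omega

theorem cnt_pos {T v : List ℕ} (h : v <:+: T) : 0 < cnt T v := by
  induction T with
  | nil => simp [cnt, List.infix_nil.1 h]
  | cons x T ih =>
    rcases List.infix_cons_iff.1 h with h | h
    · simp [cnt, h]
    · have := ih h; simp only [cnt]; omega

theorem cnt_add_le (T v : List ℕ) : cnt T v = 0 ∨ cnt T v + v.length ≤ T.length + 1 := by
  induction T with
  | nil => by_cases h : v = [] <;> simp [cnt, h]
  | cons x T ih =>
    simp only [cnt, List.length_cons]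
    split_ifs with h
    · have := h.length_le
      simp only [List.length_cons] at this
      omega
    · omega

theorem cnt_nil (T : List ℕ) : cnt T [] = T.length + 1 := by
  induction T with
  | nil => simp [cnt]
  | cons x T ih => simp [cnt, ih]; omega

theorem valid {A : List ℕ} (hA : A.Nodup) {T : List ℕ} (hT : ∀ a ∈ T, a ∈ A) {m : List ℕ → ℕ}
    {ω : ℤ → ℕ} {p : ℕ} (hp : 0 < p) (hper : Per ω p) (hω : ∀ t, ω t ∈ A) {i j : ℤ} (hij : i ≤ j)
    (hle : ∀ z, j - i < z.length → m z ≤ cnt T z)
    (hcons : ∀ z, j - i < z.length → lsum A m z ≤ m z)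
    (hup : lsum A m (wd ω (i - p) j) < m (wd ω (i - p) j))
    (h1 : ∀ x, i - p < x → x < i → m (wd ω x j) ≤ lsum A m (wd ω x j))
    (h2 : ∀ x y c, i - p < x → x ≤ i → j ≤ y → c ≠ ω (x - 1) →
      m (c :: wd ω x y) ≤ rsum A m (c :: wd ω x y)) :
    lsum A m (wd ω i j) < cnt T (wd ω i j) := by
  by_contra hcon
  have L1 : ∀ z : List ℕ, j - i ≤ z.length → cnt T z ≤ lsum A m z →
      ¬ z <+: T ∧ ∀ a ∈ A, cnt T (a :: z) ≤ m (a :: z) := by
    intro z hz h
    have h3 := cnt_lsum hA hT z
    have h4 : ∀ a ∈ A, m (a :: z) ≤ cnt T (a :: z) := fun a _ => hle _ (by simp; omega)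
    have h5 : lsum A m z ≤ lsum A (cnt T) z := sum_map_le h4
    refine ⟨fun h6 => by rw [if_pos h6] at h3; omega, le_of_sum_le h4 ?_⟩
    change lsum A (cnt T) z ≤ lsum A m z
    omega
  have L2 : ∀ z : List ℕ, j - i ≤ z.length → cnt T z ≤ rsum A m z →
      ∀ a ∈ A, cnt T (z ++ [a]) ≤ m (z ++ [a]) := by
    intro z hz h
    exact le_of_sum_le (fun a _ => hle _ (by simp; omega)) ((rsum_cnt_le hA T z).trans h)
  have row : ∀ n : ℕ, n ≤ p → cnt T (wd ω (i - n) j) ≤
      (if n = 0 then lsum A m (wd ω i j) else m (wd ω (i - n) j)) := by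
    intro n
    induction n with
    | zero => intro _; simpa using hcon
    | succ n ih =>
      intro hn
      have h3 : cnt T (wd ω (i - n) j) ≤ lsum A m (wd ω (i - n) j) := by
        have := ih (by omega)
        split_ifs at this with h
        · subst h; simpa using this
        · exact this.trans (h1 _ (by omega) (by omega))
      have := (L1 _ (by rw [wd_length' (by omega)]; omega) h3).2 _ (hω (i - n - 1))
      rw [← wd_cons' (by omega)] at this
      rw [if_neg (by omega)]
      convert this using 3 <;> push_cast <;> ring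
  have row' : ∀ x, i - p < x → x ≤ i → cnt T (wd ω x j) ≤ lsum A m (wd ω x j) := by
    intro x h3 h4
    have := row (i - x).toNat (by omega)
    rw [show i - ((i - x).toNat : ℤ) = x by omega] at this
    split_ifs at this with h
    · rw [show x = i by omega] at this ⊢; exact this
    · exact this.trans (h1 _ h3 (by omega))
  have col : ∀ x y, i - p < x → x ≤ i → j ≤ y → ∀ c ∈ A, c ≠ ω (x - 1) →
      cnt T (c :: wd ω x y) ≤ m (c :: wd ω x y) := by
    intro x y h3 h4 h5 c hc hc'
    induction y, h5 using Int.leInduction with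
    | base => exact (L1 _ (by rw [wd_length' (by omega)]; omega) (row' x h3 h4)).2 c hc
    | succ y h5 ih =>
      have := L2 _ (by rw [List.length_cons]; push_cast; rw [wd_length' (by omega)]; omega)
        (ih.trans (h2 x y c h3 h4 h5 hc')) _ (hω y)
      rwa [wd_snoc (by omega), ← List.cons_append]
  have all : ∀ x, x ≤ i → ¬ wd ω x j <+: T ∧ ∀ c ∈ A, c ≠ ω (x - 1) →
      cnt T (c :: wd ω x j) ≤ m (c :: wd ω x j) := by
    intro x hx
    have hp' : (0 : ℤ) < p := by exact_mod_cast hp
    have h3 := Int.emod_nonneg (i - x) hp'.ne'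
    have h4 := Int.emod_lt_of_pos (i - x) hp'
    have h5 := Int.mul_ediv_add_emod (i - x) p
    have h6 : 0 ≤ (i - x) / p * p := mul_nonneg (Int.ediv_nonneg (by omega) hp'.le) hp'.le
    have hd := hper.mul ((i - x) / p)
    generalize (i - x) / p = q at *
    rw [mul_comm] at h5
    generalize q * p = d at *
    rw [← wd_shift hd, ← hd (x - 1)]
    refine ⟨fun h => (L1 _ (by rw [wd_length' (by omega)]; omega)
      (row' (x + d) (by omega) (by omega))).1 ((wd_prefix (by omega) (by omega)).trans h), ?_⟩
    intro c hc hc'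
    exact col _ _ (by omega) (by omega) (by omega) c hc (by convert hc' using 2; ring)
  have desc : ∀ n : ℕ, lsum A m (wd ω (i - p - n) j) < cnt T (wd ω (i - p - n) j) := by
    intro n
    induction n with
    | zero =>
      have := hle (wd ω (i - p) j) (by rw [wd_length' (by omega)]; omega)
      simp only [CharP.cast_eq_zero, sub_zero]
      omega
    | succ n ih =>
      obtain ⟨h3, h4⟩ := all (i - p - n) (by omega)
      have h5 := cnt_lsum hA hT (wd ω (i - p - n) j)
      rw [if_neg h3] at h5
      have h6 := sum_split hA (f := fun a => cnt T (a :: wd ω (i - p - n) j))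
        (g := fun a => m (a :: wd ω (i - p - n) j)) (hω (i - p - n - 1)) (fun a ha ha' =>
          le_antisymm (h4 a ha ha') (hle _ (by
            rw [List.length_cons]; push_cast; rw [wd_length' (by omega)]; omega)))
      simp only [← wd_cons' (ω := ω) (x := i - p - n) (y := j) (by omega)] at h6
      have h7 := hcons (wd ω (i - p - n - 1) j) (by rw [wd_length' (by omega)]; omega)
      rw [show i - p - ((n + 1 : ℕ) : ℤ) = i - p - n - 1 by push_cast; ring]
      simp only [lsum] at ih h5 h7 ⊢
      omega
  have h3 := desc (T.length + 1)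
  have h4 := cnt_add_le T (wd ω (i - p - (T.length + 1 : ℕ)) j)
  have h5 := wd_length' (ω := ω) (x := i - p - (T.length + 1 : ℕ)) (y := j) (by omega)
  omega

end Vale.Agent.P333
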