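import Vale.Agent.P333.Geom

/-!
Every vertex of the hierarchical graph is a factor of a rooted word.
-/

namespace Vale.Agent.P333

variable {Up Dn Rt InV : List ℕ → Prop} {wt : List ℕ → ℕ} {ω : ℤ → ℕ}

/-- The component of `z` lies far below a rooted point. -/
def Cov (Up Dn Rt : List ℕ → Prop) (wt : List ℕ → ℕ) (ω : ℤ → ℕ) (z : List ℕ) : Prop :=
  ∃ x y1 y, Pt Up Dn ω z x y1 ∧ y1 + wt z ≤ y ∧ Rt (wd ω x y)

/-- Vertices in the strip of height `w` below the envelope. -/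
def ZB (Up Dn : List ℕ → Prop) (ω : ℤ → ℕ) (lo : ℤ → ℤ) (w x y : ℤ) : Prop :=
  Base Up Dn (wd ω x y) ∧ lo x - w ≤ y ∧ y < lo x

namespace Geo

variable (G : Geo Up Dn Rt InV wt)
include G

theorem lper_pt {x y : ℤ} (hxy : x ≤ y) (hb : Base Up Dn (wd ω x y)) (hr : ¬ Rt (wd ω x y)) :
    LPer ω (wt (wd ω x y)) x y ∧ x + wt (wd ω x y) < y := by
  have h1 := G.long hb hr
  have h2 := wd_length' (ω := ω) hxy
  exact ⟨lper_of_prefix (by omega) (G.per hb hr), by omega⟩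

variable {z : List ℕ} (L : Lives Up Dn Rt wt ω z) {lo : ℤ → ℤ} (E : Env Up Dn ω z lo)
  (C1 : ∀ x y, lo x - wt z ≤ y → ¬ Rt (wd ω x y))
include L E C1

theorem enter_low {x y : ℤ} {c : ℕ} (h1 : lo x - wt z ≤ y) (hc : c ≠ ω (x - 1))
    (hd : Dn (c :: wd ω x y)) : ZB Up Dn ω lo (wt z) x y := by
  have h3 := G.pt_long L (E.pt x)
  have ha : Arc Up Dn (c :: wd ω x y) (wd ω x y) := Or.inr ⟨hd, rfl⟩
  refine ⟨ha.base_r, h1, ?_⟩
  by_contra h
  have hxy : x ≤ y := by omega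
  have hn : ¬ Per ω (wt (wd ω x y)) := by
    intro hp
    rcases G.in_arc hxy ha.base_r (C1 x y h1) hp ha with h2 | h2
    · have := congrArg List.length h2.1
      simp only [List.length_cons, wd_length] at this
      omega
    · rw [wd_cons' hxy] at h2
      exact hc (List.cons.inj h2).1
  obtain ⟨h4, h5⟩ := G.lper_pt hxy ha.base_r (C1 x y h1)
  have hw : (0 : ℤ) < wt z := by exact_mod_cast G.wt_pos _ L.base
  have h6 : y - x < wt z + wt (wd ω x y) := by
    by_contra h7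
    exact hn (per_of_lper hw L.per h4 (by omega))
  have hv := G.inV _ ha.base_r
  have := G.maxi (wd ω x y) [] 0 hv (G.inV_sub _ _ hv List.nil_infix) (by simp) (by simp)
    ⟨[], ⟨le_rfl, Or.inl List.nil_prefix⟩, G.rt_nil⟩ [wd ω x (lo x), wd ω x y] (by simp)
    (by
      simp only [List.mem_cons, List.not_mem_nil, or_false, forall_eq_or_imp, forall_eq,
        List.append_nil]
      exact ⟨⟨⟨by simp, Or.inl (wd_prefix (by omega) (by omega))⟩, pt_base L (E.pt x),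
        G.pt_nr L (E.pt x)⟩, ⟨by simp, Or.inl List.prefix_rfl⟩, ha.base_r, C1 x y h1⟩)
    (by
      simp only [List.pairwise_cons, List.mem_singleton, forall_eq, List.not_mem_nil,
        IsEmpty.forall_iff, implies_true, List.Pairwise.nil, and_true]
      intro h7
      rw [← G.wt_conn _ _ h7, G.wt_conn _ _ (E.pt x).2] at hn
      exact hn L.per)
  have h8 := wd_length' (ω := ω) hxy
  simp only [List.map_cons, List.map_nil, List.sum_cons, List.sum_nil,
    G.wt_conn _ _ (E.pt x).2, List.append_nil] at this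
  omega

theorem zwit (x : ℤ) : ∃ x' y', x' ≤ x ∧ lo (x + 1) - wt z ≤ y' ∧ ZB Up Dn ω lo (wt z) x' y' := by
  obtain ⟨c, h1, h2⟩ := G.env_col L E (lo (x + 1) - wt z)
  have h3 : c ≤ x - wt z := by
    by_contra h
    have h4 := G.env_mono L E (x := x + 1 + -wt z) (x' := c) (by omega)
    rw [E.shift L.per.neg] at h4
    omega
  generalize lo (x + 1) - wt z = j at *
  have h4 := G.pt_long L (E.pt c)
  have h5 := E.shift L.per c
  have := G.rule ω (wt z) (c + wt z) j (G.wt_pos _ L.base) L.per (by omega)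
    (by simpa using G.env_up L E c j h1 h2)
  rcases this with ⟨x', h6, h7, h8⟩ | ⟨x', y', a, h6, h7, h8, h9, h10⟩
  · have h9 := G.env_mono L E (x := c + 1) (x' := x') (by omega)
    have h10 := G.env_mono L E h7
    have ha : Arc Up Dn (wd ω x' (j - 1)) (wd ω x' j) :=
      Or.inl ⟨h8, (wd_dropLast (by omega)).symm⟩
    refine ⟨x', j, by omega, le_rfl, ha.base_r, by omega, ?_⟩
    by_contra h
    have h11 : j = lo x' := by omega
    have := E.le x' (j - 1) ⟨by omega, ha.conn.trans (by rw [h11]; exact (E.pt x').2)⟩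
    omega
  · have h11 := G.env_mono L E h7
    exact ⟨x', y', by omega, h8, G.enter_low L E C1 (by omega) h9 h10⟩

theorem junction {a x₁ y₁ x y₂ : ℤ} (Z1 : ZB Up Dn ω lo (wt z) x₁ y₁)
    (Z2 : ZB Up Dn ω lo (wt z) x y₂) (h1 : x₁ ≤ x) (h2 : y₁ ≤ y₂) (h3 : lo x - wt z ≤ y₁)
    (hl : LPer ω (wt (wd ω x₁ y₁)) a y₁) : LPer ω (wt (wd ω x y₂)) a y₂ := by
  have h4 := G.pt_long L (E.pt x)
  have h5 := G.pt_long L (E.pt x₁)
  obtain ⟨b1, z1, z1'⟩ := Z1
  obtain ⟨b2, z2, z2'⟩ := Z2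
  obtain ⟨l2, -⟩ := G.lper_pt (by omega) b2 (C1 _ _ z2)
  have h6 : x ≤ x₁ + wt z := by
    by_contra h
    have h7 := G.env_mono L E (x := x₁ + wt z) (x' := x) (by omega)
    rw [E.shift L.per] at h7
    omega
  have hl' := wd_length' (ω := ω) (x := x) (y := y₁ + wt z) (by omega)
  have o0 : OnHook (wd ω x (y₁ + wt z)) 0 (wd ω x (lo x)) ∧ Base Up Dn (wd ω x (lo x)) ∧
      ¬ Rt (wd ω x (lo x)) :=
    ⟨⟨by simp, Or.inl (wd_prefix (by omega) (by omega))⟩, pt_base L (E.pt x), G.pt_nr L (E.pt x)⟩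
  have o1 : OnHook (wd ω x (y₁ + wt z)) 0 (wd ω x₁ y₁) ∧ Base Up Dn (wd ω x₁ y₁) ∧
      ¬ Rt (wd ω x₁ y₁) :=
    ⟨⟨by simp, Or.inr (by rw [← wd_shift L.per x₁ y₁]; exact wd_suffix h6 (by omega))⟩, b1,
      C1 _ _ z1⟩
  have o2 : OnHook (wd ω x (y₁ + wt z)) 0 (wd ω x y₂) ∧ Base Up Dn (wd ω x y₂) ∧
      ¬ Rt (wd ω x y₂) :=
    ⟨⟨by simp, Or.inl (wd_prefix (by omega) (by omega))⟩, b2, C1 _ _ z2⟩
  have n1 : ¬ Conn Up Dn (wd ω x (lo x)) (wd ω x₁ y₁) := fun h => by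
    have := E.le x₁ y₁ ⟨by omega, h.symm.trans (E.pt x).2⟩
    omega
  have n2 : ¬ Conn Up Dn (wd ω x (lo x)) (wd ω x y₂) := fun h => by
    have := E.le x y₂ ⟨by omega, h.symm.trans (E.pt x).2⟩
    omega
  have M := G.maxi_pl L E (x := x) (y := y₁ + wt z) 0 (by omega)
    (by have := G.env_mono L E h1; omega) (by simp) (by simp)
    ⟨[], ⟨le_rfl, Or.inl List.nil_prefix⟩, G.rt_nil⟩
  by_cases hc : Conn Up Dn (wd ω x₁ y₁) (wd ω x y₂)
  · have := M [wd ω x (lo x), wd ω x₁ y₁] (by simp) (by simp [o0, o1]) (by simp [n1])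
    simp only [List.map_cons, List.map_nil, List.sum_cons, List.sum_nil,
      G.wt_conn _ _ (E.pt x).2] at this
    rw [G.wt_conn _ _ hc] at hl this
    exact lper_glue' hl l2 (by omega)
  · have := M [wd ω x (lo x), wd ω x₁ y₁, wd ω x y₂] (by simp) (by simp [o0, o1, o2])
      (by simp [n1, n2, hc])
    simp only [List.map_cons, List.map_nil, List.sum_cons, List.sum_nil,
      G.wt_conn _ _ (E.pt x).2] at this
    exact lper_glue (by exact_mod_cast G.wt_pos _ b1) (by omega) hl l2 (by omega) h2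

theorem exists_aligned : ∃ x y, ZB Up Dn ω lo (wt z) x y ∧ Per ω (wt (wd ω x y)) := by
  have hmax : ∀ x, ∃ x₁ y₁, x₁ ≤ x ∧ ZB Up Dn ω lo (wt z) x₁ y₁ ∧
      ∀ x' y', x' ≤ x → ZB Up Dn ω lo (wt z) x' y' → y' ≤ y₁ := by
    intro x
    obtain ⟨y₁, ⟨x₁, h1, h2⟩, h3⟩ := Int.exists_greatest_of_bdd
      (P := fun y => ∃ x', x' ≤ x ∧ ZB Up Dn ω lo (wt z) x' y)
      ⟨lo x, fun y ⟨x', h1, h2⟩ => by have := G.env_mono L E h1; have := h2.2.2; omega⟩
      (by obtain ⟨x', y', h1, _, h2⟩ := G.zwit L E C1 x; exact ⟨y', x', h1, h2⟩)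
    exact ⟨x₁, y₁, h1, h2, fun x' y' h4 h5 => h3 y' ⟨x', h4, h5⟩⟩
  obtain ⟨a, y₀, h1, h2, h3⟩ := hmax 0
  have key : ∀ x : ℤ, 0 ≤ x → ∃ x₁ y₁, x₁ ≤ x ∧ ZB Up Dn ω lo (wt z) x₁ y₁ ∧
      (∀ x' y', x' ≤ x → ZB Up Dn ω lo (wt z) x' y' → y' ≤ y₁) ∧
      LPer ω (wt (wd ω x₁ y₁)) a y₁ := by
    intro x hx
    induction x, hx using Int.leInduction with
    | base =>
      have := G.pt_long L (E.pt a)
      have := h2.2.1
      exact ⟨a, y₀, h1, h2, h3, (G.lper_pt (by omega) h2.1 (C1 _ _ h2.2.1)).1⟩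
    | succ x _ ih =>
      obtain ⟨x₁, y₁, h4, h5, h6, h7⟩ := ih
      obtain ⟨x₂, y₂, h8, h9, h10⟩ := hmax (x + 1)
      by_cases h : y₂ ≤ y₁
      · exact ⟨x₁, y₁, by omega, h5, fun x' y' h11 h12 => (h10 x' y' h11 h12).trans h, h7⟩
      · have h11 : x₂ = x + 1 := by
          by_contra h12
          exact h (h6 x₂ y₂ (by omega) h9)
        subst h11
        obtain ⟨x', y', h12, h13, h14⟩ := G.zwit L E C1 x
        have := h6 x' y' h12 h14
        exact ⟨_, y₂, le_rfl, h9, h10,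
          G.junction L E C1 h5 h9 (by omega) (by omega) (by omega) h7⟩
  have hw : (0 : ℤ) < wt z := by exact_mod_cast G.wt_pos _ L.base
  obtain ⟨x₁, y₁, h4, h5, h6, h7⟩ := key (2 * wt z) (by omega)
  refine ⟨x₁, y₁, h5, per_of_lper hw L.per h7 ?_⟩
  obtain ⟨x', y', h12, h13, h14⟩ := G.zwit L E C1 (2 * wt z)
  have h15 := h6 x' y' h12 h14
  have h16 := G.pt_long L (E.pt x₁)
  have h17 := h5.2.1
  have h18 := h5.2.2
  have h19 := (G.lper_pt (by omega) h5.1 (C1 _ _ h5.2.1)).2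
  have h20 : (wt z : ℤ) ≤ x₁ := by
    by_contra h
    have h7 := G.env_mono L E (x := x₁ + wt z) (x' := 2 * wt z + 1) (by omega)
    rw [E.shift L.per] at h7
    omega
  omega

omit L E C1 in
theorem cov (n : ℕ) : ∀ z, Lives Up Dn Rt wt ω z → Pt Up Dn ω z 0 n → Cov Up Dn Rt wt ω z := by
  induction n using Nat.strong_induction_on with
  | _ n ih =>
    intro z L hn
    by_contra hcov
    obtain ⟨lo, E⟩ := G.exists_env L
    have C1 : ∀ x y, lo x - wt z ≤ y → ¬ Rt (wd ω x y) := by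
      intro x y h1
      by_cases h2 : y ≤ lo x + wt z
      · exact G.no_near L E h1 h2
      · exact fun h => hcov ⟨x, lo x, y, E.pt x, by omega, h⟩
    obtain ⟨x, y, ⟨h1, h2, h3⟩, h4⟩ := G.exists_aligned L E C1
    have h5 := G.pt_long L (E.pt x)
    have hp : Pt Up Dn ω (wd ω x y) x y := ⟨by omega, Conn.rfl'⟩
    have L' : Lives Up Dn Rt wt ω (wd ω x y) := ⟨h1, C1 _ _ h2, h4, x, y, hp⟩
    obtain ⟨lo', E'⟩ := G.exists_env L'
    have hlt : ∀ t, x ≤ t → lo' t < lo t := by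
      intro t ht
      induction t, ht using Int.leInduction with
      | base => exact (E'.le _ _ hp).trans_lt h3
      | succ t _ ih =>
        by_contra h
        have h6 := G.env_mono L E (x := t) (x' := t + 1) (by omega)
        have h7 := G.env_fill L' E' t (lo t) ih.le (by omega)
        have := E.le x y ⟨by omega, h7.2.symm.trans (E.pt t).2⟩
        omega
    have hw : (0 : ℤ) < wt z := by exact_mod_cast G.wt_pos _ L.base
    have h0 : lo' 0 < lo 0 := by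
      have := hlt (0 + |x| * wt z) (by
        have h1 := le_abs_self x
        have h2 := abs_nonneg x
        nlinarith)
      rw [E.shift (L.per.mul _), E'.shift (L.per.mul _)] at this
      omega
    have h6 := E.le _ _ hn
    have h7 := (E'.pt 0).1
    obtain ⟨x₂, y₁, y₂, h8, h9, h10⟩ := ih (lo' 0).toNat (by omega) _ L'
      (by rw [Int.toNat_of_nonneg h7]; exact E'.pt 0)
    obtain ⟨x', y', e, h11, -, -, h12, -⟩ :=
      G.rect h8.1 (pt_base L' h8) (G.pt_nr L' h8) (G.pt_per L' h8) h8.2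
    rw [G.wt_conn _ _ h8.2] at h12
    have h13 := G.pt_long L' hp
    obtain ⟨h14, h15⟩ := per_of_wd_eq (by exact_mod_cast G.wt_pos _ h1) h4 (by omega) e
    have h16 := E.shift h14 x
    rw [add_sub_cancel] at h16
    have h17 := G.env_mono L E h11
    exact C1 x₂ y₂ (by omega) h10

omit L E C1 in
theorem covered {z : List ℕ} (hb : Base Up Dn z) : ∃ r, Rt r ∧ z <:+: r := by
  by_cases hr : Rt z
  · exact ⟨z, hr, List.infix_rfl⟩
  obtain ⟨ω, h1, h2, -⟩ := exists_ext (G.wt_pos _ hb) (G.long hb hr).le (G.per hb hr)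
  have hp : Pt Up Dn ω z 0 z.length := ⟨by omega, by rw [← h2]; exact Conn.rfl'⟩
  have L : Lives Up Dn Rt wt ω z := ⟨hb, hr, h1, _, _, hp⟩
  obtain ⟨x, y₁, y, h3, h4, h5⟩ := G.cov _ z L hp
  obtain ⟨x', y', e, h11, -, -, h12, h13⟩ :=
    G.rect h3.1 (pt_base L h3) (G.pt_nr L h3) (G.pt_per L h3) h3.2
  rw [G.wt_conn _ _ h3.2] at h12
  exact ⟨_, h5, by rw [← e]; exact wd_infix h11 h13 (by omega)⟩

end Geo

end Vale.Agent.P333
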