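import Vale.Agent.Lib.H24.PTNum

/-!
Hierholzer's algorithm: extending a closed walk by all arcs connected to it.
-/

namespace Vale.Agent.P333

open Vale.Agent.Lib.H24.T (lcase)

/-- Arcs as pairs of words. -/
abbrev Ar : Type := List ℕ × List ℕ

/-- Equality test for words. -/
def eqw (a b : List ℕ) : Bool := decide (a = b)

@[simp] theorem eqw_iff {a b : List ℕ} : eqw a b = true ↔ a = b := by simp [eqw]
@[simp] theorem eqw_false {a b : List ℕ} : eqw a b = false ↔ a ≠ b := by simp [eqw]

/-- Walks. -/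
inductive Path : List ℕ → List ℕ → List Ar → Prop
  | nil (a) : Path a a []
  | cons {a b c t} : Path b c t → Path a c ((a, b) :: t)

theorem Path.append {a b c l l'} (h : Path a b l) (h' : Path b c l') : Path a c (l ++ l') := by
  induction h with
  | nil => exact h'
  | cons _ ih => exact (ih h').cons

theorem Path.split {a c : List ℕ} {l l' : List Ar} (h : Path a c (l ++ l')) :
    ∃ b, Path a b l ∧ Path b c l' := by
  induction l generalizing a with
  | nil => exact ⟨a, Path.nil a, h⟩
  | cons e l ih =>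
    cases h with
    | cons h =>
      obtain ⟨b, h1, h2⟩ := ih h
      exact ⟨b, h1.cons, h2⟩

theorem Path.single {a c : List ℕ} {e : Ar} (h : Path a c [e]) : e = (a, c) := by
  cases h with
  | cons h => cases h; rfl

/-- Out-degree. -/
def outd (l : List Ar) (v : List ℕ) : ℕ := l.countP fun e => eqw e.1 v

/-- In-degree. -/
def ind (l : List Ar) (v : List ℕ) : ℕ := l.countP fun e => eqw e.2 v

/-- Balanced families of arcs. -/
def Bal (l : List Ar) : Prop := ∀ v, outd l v = ind l v

theorem Path.deg {a b l} (h : Path a b l) (v : List ℕ) :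
    outd l v + (if b = v then 1 else 0) = ind l v + if a = v then 1 else 0 := by
  induction h with
  | nil => simp [outd, ind]
  | cons _ ih =>
    simp only [outd, ind, List.countP_cons, eqw_iff] at ih ⊢
    omega

theorem Path.bal {a l} (h : Path a a l) : Bal l := fun v => by have := h.deg v; omega

theorem outd_append (l l' : List Ar) (v) : outd (l ++ l') v = outd l v + outd l' v :=
  List.countP_append

theorem ind_append (l l' : List Ar) (v) : ind (l ++ l') v = ind l v + ind l' v :=
  List.countP_append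

theorem outd_perm {l l' : List Ar} (h : l.Perm l') (v) : outd l v = outd l' v := h.countP_eq _
theorem ind_perm {l l' : List Ar} (h : l.Perm l') (v) : ind l v = ind l' v := h.countP_eq _

theorem Bal.append {l l' : List Ar} (h : Bal l) (h' : Bal l') : Bal (l ++ l') := fun v => by
  rw [outd_append, ind_append, h v, h' v]

theorem outd_pos {l : List Ar} {v} : 0 < outd l v ↔ ∃ e ∈ l, e.1 = v := by
  simp [outd, List.countP_pos_iff]

theorem ind_pos {l : List Ar} {v} : 0 < ind l v ↔ ∃ e ∈ l, e.2 = v := by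
  simp [ind, List.countP_pos_iff]

/-- Vertices of a walk starting at `r`. -/
def Vt (r : List ℕ) (l : List Ar) (v : List ℕ) : Prop := v = r ∨ ∃ e ∈ l, e.2 = v

theorem Path.src {a b l} (h : Path a b l) {e : Ar} (he : e ∈ l) : Vt a l e.1 := by
  induction h with
  | nil => simp at he
  | cons _ ih =>
    rcases List.mem_cons.1 he with rfl | he
    · exact Or.inl rfl
    · rcases ih he with h | ⟨f, h1, h2⟩
      · exact Or.inr ⟨_, List.mem_cons_self, h.symm⟩
      · exact Or.inr ⟨f, List.mem_cons_of_mem _ h1, h2⟩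

theorem Path.closure {a b l} (h : Path a b l) {P : List ℕ → Prop}
    (hP : ∀ e ∈ l, P e.1 → P e.2) (ha : P a) : P b ∧ ∀ v, Vt a l v → P v := by
  induction h with
  | nil => exact ⟨ha, fun v hv => by rcases hv with rfl | ⟨e, h, _⟩; exacts [ha, by simp at h]⟩
  | cons _ ih =>
    have h1 := hP _ List.mem_cons_self ha
    obtain ⟨h2, h3⟩ := ih (fun e he => hP e (List.mem_cons_of_mem _ he)) h1
    refine ⟨h2, fun v hv => ?_⟩
    rcases hv with rfl | ⟨e, h4, rfl⟩
    · exact ha
    · rcases List.mem_cons.1 h4 with rfl | h4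
      · exact h1
      · exact h3 _ (Or.inr ⟨e, h4, rfl⟩)

theorem Path.split_at {a b l v} (h : Path a b l) (hv : Vt a l v) :
    ∃ l1 l2, l = l1 ++ l2 ∧ Path a v l1 ∧ Path v b l2 := by
  rcases hv with rfl | ⟨e, he, rfl⟩
  · exact ⟨[], l, rfl, Path.nil _, h⟩
  · obtain ⟨s, t, rfl⟩ := List.append_of_mem he
    have h' : Path a b ((s ++ [e]) ++ t) := by simpa using h
    obtain ⟨c, h1, h2⟩ := h'.split
    obtain ⟨d, -, h4⟩ := h1.split
    have h5 : e.2 = c := by rw [h4.single]
    exact ⟨s ++ [e], t, by simp, h5 ▸ h1, h5 ▸ h2⟩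

/-- The current vertex. -/
def cur (r : List ℕ) (A : List Ar) : List ℕ := (A.headD (r, r)).2

/-- One step of Hierholzer's algorithm. -/
def hstep (r : List ℕ) (s : List Ar × List Ar × List Ar) : List Ar × List Ar × List Ar :=
  lcase (s.2.2.filter fun e => eqw e.1 (cur r s.1))
    (lcase s.1 s fun a A => (A, a :: s.2.1, s.2.2))
    fun e F => (e :: s.1, s.2.1, F ++ s.2.2.filter fun e => !eqw e.1 (cur r s.1))

/-- Extend the closed walk `t` at `r` by everything in `R` that can be reached. -/
def absorb (r : List ℕ) (t R : List Ar) : List Ar × List Ar :=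
  ((hstep r)^[(t ++ (R ++ R)).length] (t.reverse, [], R)).2

/-- The invariant of Hierholzer's algorithm. -/
def HInv (r : List ℕ) (t R₀ : List Ar) (s : List Ar × List Ar × List Ar) : Prop :=
  Path r (cur r s.1) s.1.reverse ∧ (∃ x, Path x r s.2.1) ∧ (∀ e ∈ s.2.1, ∀ f ∈ s.2.2, f.1 ≠ e.2) ∧
    ∃ Ab, (s.1 ++ s.2.1).Perm (t ++ Ab) ∧ R₀.Perm (Ab ++ s.2.2)

theorem HInv.stuck {r t R₀ s} (h : HInv r t R₀ s) (ht : Path r r t) (hR : Bal R₀)
    (hs : ∀ f ∈ s.2.2, f.1 ≠ cur r s.1) : Path (cur r s.1) r s.2.1 := by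
  obtain ⟨h1, ⟨x, h2⟩, -, Ab, h4, h5⟩ := h
  have e1 := h1.deg (cur r s.1)
  have e2 := h2.deg (cur r s.1)
  have e3 := ht.bal (cur r s.1)
  have e4 := hR (cur r s.1)
  have e5 := outd_perm h4 (cur r s.1)
  have e6 := ind_perm h4 (cur r s.1)
  have e7 := outd_perm h5 (cur r s.1)
  have e8 := ind_perm h5 (cur r s.1)
  have e9 : outd s.2.2 (cur r s.1) = 0 := by
    by_contra h
    obtain ⟨e, he, h⟩ := outd_pos.1 (Nat.pos_of_ne_zero h)
    exact hs e he h
  rw [outd_perm (List.reverse_perm _), ind_perm (List.reverse_perm _), if_pos rfl] at e1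
  simp only [outd_append, ind_append] at e5 e6 e7 e8
  by_cases hx : x = cur r s.1
  · rw [← hx]; exact h2
  · rw [if_neg hx] at e2; omega

theorem cur_eq {r c : List ℕ} {A : List Ar} (h : Path r c A.reverse) : c = cur r A := by
  cases A with
  | nil => cases h; rfl
  | cons a A =>
    rw [List.reverse_cons] at h
    obtain ⟨b, -, h2⟩ := h.split
    rw [h2.single]; rfl

theorem HInv.step {r t R₀ s} (h : HInv r t R₀ s) (ht : Path r r t) (hR : Bal R₀) :
    HInv r t R₀ (hstep r s) ∧
      ((s.1 = [] ∧ (∀ f ∈ s.2.2, f.1 ≠ r) ∧ hstep r s = s) ∨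
        (hstep r s).1.length + 2 * (hstep r s).2.2.length < s.1.length + 2 * s.2.2.length) := by
  have hst := h.stuck ht hR
  obtain ⟨A, B, R⟩ := s
  have hperm := List.filter_append_perm (fun e : Ar => eqw e.1 (cur r A)) R
  have e0 : hstep r (A, B, R) = lcase (R.filter (fun e : Ar => eqw e.1 (cur r A)))
    (lcase A (A, B, R) fun a A => (A, a :: B, R))
    fun e F => (e :: A, B, F ++ R.filter fun e : Ar => !eqw e.1 (cur r A)) := rfl
  rw [e0]
  clear e0
  rcases hF : R.filter (fun e : Ar => eqw e.1 (cur r A)) with _ | ⟨e, F⟩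
  · have hs : ∀ f ∈ R, f.1 ≠ cur r A := by simpa using hF
    rcases A with _ | ⟨a, A⟩
    · exact ⟨h, Or.inl ⟨rfl, hs, rfl⟩⟩
    · obtain ⟨h1, -, h3, Ab, h4, h5⟩ := h
      simp only [List.reverse_cons] at h1
      obtain ⟨b, h6, h7⟩ := h1.split
      have h8 := h7.single
      have h9 : Path r (cur r A) A.reverse := by rw [← cur_eq h6]; exact h6
      refine ⟨⟨h9, ⟨b, by
        show Path b r (a :: B)
        rw [h8]; exact (hst hs).cons⟩, ?_, Ab, ?_, h5⟩, Or.inr (by simp [lcase])⟩
      · intro e he f hf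
        rcases List.mem_cons.1 he with rfl | he
        · exact hs f hf
        · exact h3 e he f hf
      · exact List.perm_middle.trans h4
  · obtain ⟨h1, h2, h3, Ab, h4, h5⟩ := h
    rw [hF] at hperm
    have he : e.1 = cur r A := by
      have : e ∈ R.filter (fun e => eqw e.1 (cur r A)) := by rw [hF]; simp
      simpa using (List.mem_filter.1 this).2
    refine ⟨⟨?_, h2, fun e' he' f hf => h3 e' he' f (hperm.subset (List.mem_cons_of_mem _ hf)),
      e :: Ab, ?_, ?_⟩, Or.inr ?_⟩
    · show Path r e.2 (e :: A).reverse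
      rw [List.reverse_cons]
      refine h1.append ?_
      show Path (cur r A) e.2 [(e.1, e.2)]
      rw [he]; exact (Path.nil _).cons
    · exact (List.Perm.cons e h4).trans List.perm_middle.symm
    · exact h5.trans ((List.Perm.append_left Ab hperm.symm).trans List.perm_middle)
    · have := hperm.length_eq
      simp only [lcase, List.length_cons, List.cons_append] at this ⊢
      omega

theorem absorb_spec {r t R₀} (ht : Path r r t) (hR : Bal R₀) :
    Path r r (absorb r t R₀).1 ∧ Bal (absorb r t R₀).2 ∧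
      (∀ f ∈ (absorb r t R₀).2, ¬ Vt r (absorb r t R₀).1 f.1 ∧ ¬ Vt r (absorb r t R₀).1 f.2) ∧
      ∃ Ab, (absorb r t R₀).1.Perm (t ++ Ab) ∧ R₀.Perm (Ab ++ (absorb r t R₀).2) := by
  have key : ∀ n s, HInv r t R₀ s → s.1.length + 2 * s.2.2.length ≤ n →
      HInv r t R₀ ((hstep r)^[n] s) ∧ ((hstep r)^[n] s).1 = [] ∧
        ∀ f ∈ ((hstep r)^[n] s).2.2, f.1 ≠ r := by
    intro n
    induction n with
    | zero =>
      intro s h hn
      have h1 : s.1 = [] := List.length_eq_zero_iff.1 (by omega)
      have h2 : s.2.2 = [] := List.length_eq_zero_iff.1 (by omega)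
      exact ⟨h, h1, by simp [h2]⟩
    | succ n ih =>
      intro s h hn
      obtain ⟨h1, ⟨h2, h3, h4⟩ | h2⟩ := h.step ht hR
      · rw [Function.iterate_fixed h4]; exact ⟨h, h2, h3⟩
      · exact ih _ h1 (by omega)
  have h0 : HInv r t R₀ (t.reverse, [], R₀) := by
    have h1 : Path r r t.reverse.reverse := by simpa using ht
    exact ⟨by rw [← cur_eq h1]; exact h1, ⟨r, Path.nil r⟩, by simp, [], by simp, by simp⟩
  obtain ⟨h1, h2, h3⟩ := key (t ++ (R₀ ++ R₀)).length _ h0 (by simp; omega)
  unfold absorb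
  generalize (hstep r)^[(t ++ (R₀ ++ R₀)).length] (t.reverse, [], R₀) = s at *
  have h4 := h1.stuck ht hR (by rw [h2]; exact h3)
  obtain ⟨-, -, h5, Ab, h6, h7⟩ := h1
  rw [h2] at h4 h6
  have h8 : Bal s.2.2 := fun v => by
    have e1 := Path.bal h4 v
    have e3 := ht.bal v
    have e4 := hR v
    have e5 := outd_perm h6 v
    have e6 := ind_perm h6 v
    have e7 := outd_perm h7 v
    have e8 := ind_perm h7 v
    simp only [outd_append, ind_append, List.nil_append] at e5 e6 e7 e8
    omega
  have h9 : ∀ f ∈ s.2.2, ¬ Vt r s.2.1 f.1 := by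
    rintro f hf (h | ⟨e, he, h⟩)
    · exact h3 f hf h
    · exact h5 e he f hf h.symm
  refine ⟨h4, h8, fun f hf => ⟨h9 f hf, fun h => ?_⟩, Ab, h6, h7⟩
  obtain ⟨g, hg, h10⟩ := outd_pos.1 ((h8 f.2).symm ▸ ind_pos.2 ⟨f, hf, rfl⟩)
  exact h9 g hg (h10 ▸ h)

/-- The letters read along the upward arcs. -/
def spell (l : List Ar) : List ℕ := l.flatMap fun e => e.2.drop e.1.length

/-- Arcs of the full hierarchical graph. -/
def Valid (e : Ar) : Prop := (e.2 ≠ [] ∧ e.1 = e.2.dropLast) ∨ (e.1 ≠ [] ∧ e.2 = e.1.tail)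

theorem spell_append (l l' : List Ar) : spell (l ++ l') = spell l ++ spell l' := by simp [spell]

theorem Path.spell_suffix {a b l} (h : Path a b l) (hv : ∀ e ∈ l, Valid e) :
    b <:+ a ++ spell l := by
  induction h with
  | nil => simp [spell]
  | @cons a b c t _ ih =>
    have h1 := ih fun e he => hv e (List.mem_cons_of_mem _ he)
    have h2 : b <:+ a ++ b.drop a.length := by
      rcases hv _ List.mem_cons_self with ⟨h3, h4⟩ | ⟨h3, h4⟩
      · simp only at h3 h4
        have h5 : a <+: b := h4 ▸ List.dropLast_prefix b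
        rw [← List.prefix_append_drop h5]
      · simp only at h3 h4
        rw [List.drop_eq_nil_of_le (by rw [h4]; simp), List.append_nil, h4]
        exact List.tail_suffix a
    obtain ⟨u, hu⟩ := h2
    refine h1.trans ⟨u, ?_⟩
    simp only [spell, List.flatMap_cons]
    rw [← List.append_assoc, hu, List.append_assoc]

/-- The number of upward arcs. -/
def cost (l : List Ar) : ℕ := (spell l).length

theorem cost_append (l l' : List Ar) : cost (l ++ l') = cost l + cost l' := by
  simp [cost, spell_append]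

theorem cost_eq (l : List Ar) : cost l = (l.map fun e => e.2.length - e.1.length).sum := by
  simp [cost, spell, List.length_flatMap]

theorem cost_perm {l l' : List Ar} (h : l.Perm l') : cost l = cost l' := by
  rw [cost_eq, cost_eq]; exact (h.map _).sum_eq

end Vale.Agent.P333
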