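import Vale.Agent.P333.Word

/-!
The geometric core: periodic components of the hierarchical graph are covered by rooted words.
-/

namespace Vale.Agent.P333

/-- Arcs of the hierarchical graph. -/
def Arc (Up Dn : List ℕ → Prop) (a b : List ℕ) : Prop :=
  (Up b ∧ a = b.dropLast) ∨ (Dn a ∧ b = a.tail)

/-- Vertices incident with an arc. -/
def Base (Up Dn : List ℕ → Prop) (z : List ℕ) : Prop := ∃ y, Arc Up Dn z y ∨ Arc Up Dn y z

/-- Connectivity. -/
def Conn (Up Dn : List ℕ → Prop) : List ℕ → List ℕ → Prop := Relation.EqvGen (Arc Up Dn)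

/-- Vertices of the closed walk going up from the border of length `k` to `y` and down again. -/
def OnHook (y : List ℕ) (k : ℕ) (z : List ℕ) : Prop := k ≤ z.length ∧ (z <+: y ∨ z <:+ y)

/-- The hypotheses of the geometric argument. -/
structure Geo (Up Dn Rt InV : List ℕ → Prop) (wt : List ℕ → ℕ) : Prop where
  up_ne : ∀ z, Up z → z ≠ []
  dn_ne : ∀ z, Dn z → z ≠ []
  hin : ∀ z, Base Up Dn z → ∃ y, Arc Up Dn y z
  hout : ∀ z, Base Up Dn z → ∃ y, Arc Up Dn z y
  wt_conn : ∀ a b, Conn Up Dn a b → wt a = wt b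
  wt_pos : ∀ z, Base Up Dn z → 0 < wt z
  rt_nil : Rt []
  rt_arc : ∀ a b, Arc Up Dn a b → (Rt a ↔ Rt b)
  tour : ∀ z z', Base Up Dn z → Conn Up Dn z z' → ∃ l1 l2 : List ℕ,
    l1.length + l2.length = wt z ∧ z' <:+ z ++ l1 ∧ z <:+ z' ++ l2
  inV : ∀ z, Base Up Dn z → InV z
  inV_sub : ∀ z z', InV z → z' <:+: z → InV z'
  rule : ∀ (ω : ℤ → ℕ) (p : ℕ) (i j : ℤ), 0 < p → Per ω p → i < j → Up (wd ω (i - p) j) →
    (∃ x, i - p < x ∧ x ≤ i ∧ Up (wd ω x j)) ∨
    (∃ x y c, i - p < x ∧ x ≤ i ∧ j ≤ y ∧ c ≠ ω (x - 1) ∧ Dn (c :: wd ω x y))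
  maxi : ∀ a b k, InV a → InV b → k ≤ (a ++ b).length → (a ++ b).take k <:+ a ++ b →
    (∃ r, OnHook (a ++ b) k r ∧ Rt r) → ∀ Zs : List (List ℕ), Zs ≠ [] →
    (∀ z ∈ Zs, OnHook (a ++ b) k z ∧ Base Up Dn z ∧ ¬ Rt z) →
    Zs.Pairwise (fun u v => ¬ Conn Up Dn u v) → (Zs.map wt).sum < (a ++ b).length - k

variable {Up Dn Rt InV : List ℕ → Prop} {wt : List ℕ → ℕ} {ω : ℤ → ℕ}

theorem Conn.rfl' {a : List ℕ} : Conn Up Dn a a := Relation.EqvGen.refl _
theorem Conn.symm {a b : List ℕ} (h : Conn Up Dn a b) : Conn Up Dn b a :=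
  Relation.EqvGen.symm _ _ h
theorem Conn.trans {a b c : List ℕ} (h : Conn Up Dn a b) (h' : Conn Up Dn b c) :
    Conn Up Dn a c := Relation.EqvGen.trans _ _ _ h h'
theorem Arc.conn {a b : List ℕ} (h : Arc Up Dn a b) : Conn Up Dn a b := Relation.EqvGen.rel _ _ h
theorem Arc.base_l {a b : List ℕ} (h : Arc Up Dn a b) : Base Up Dn a := ⟨b, Or.inl h⟩
theorem Arc.base_r {a b : List ℕ} (h : Arc Up Dn a b) : Base Up Dn b := ⟨a, Or.inr h⟩

theorem Conn.base_iff {a b : List ℕ} (h : Conn Up Dn a b) : Base Up Dn a ↔ Base Up Dn b := by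
  induction h with
  | rel _ _ h => exact ⟨fun _ => h.base_r, fun _ => h.base_l⟩
  | refl => rfl
  | symm _ _ _ ih => exact ih.symm
  | trans _ _ _ _ _ ih ih' => exact ih.trans ih'

namespace Geo

variable (G : Geo Up Dn Rt InV wt)
include G

theorem rt_conn {a b : List ℕ} (h : Conn Up Dn a b) : Rt a ↔ Rt b := by
  induction h with
  | rel _ _ h => exact G.rt_arc _ _ h
  | refl => rfl
  | symm _ _ _ ih => exact ih.symm
  | trans _ _ _ _ _ ih ih' => exact ih.trans ih'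

theorem long {z : List ℕ} (hb : Base Up Dn z) (hr : ¬ Rt z) : wt z < z.length := by
  have hv := G.inV z hb
  have := G.maxi z [] 0 hv (G.inV_sub _ _ hv List.nil_infix) (by simp) (by simp)
    ⟨[], ⟨le_rfl, Or.inl List.nil_prefix⟩, G.rt_nil⟩ [z] (by simp)
    (by simp [OnHook, hb, hr]) (by simp)
  simpa using this

omit G in
theorem tour_per {z z' l1 l2 : List ℕ} (h1 : z' <:+ z ++ l1) (h2 : z <:+ z' ++ l2) :
    (z ++ (l1 ++ l2)).drop (l1.length + l2.length) = z := by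
  have h3 : z <:+ z ++ (l1 ++ l2) := by
    rw [← List.append_assoc]
    obtain ⟨t, ht⟩ := h1
    exact h2.trans ⟨t, by rw [← ht]; simp⟩
  have := List.suffix_iff_eq_drop.1 h3
  simp only [List.length_append, Nat.add_sub_cancel_left] at this
  exact this.symm

theorem per {z : List ℕ} (hb : Base Up Dn z) (hr : ¬ Rt z) : z.drop (wt z) <+: z := by
  obtain ⟨l1, l2, h0, h1, h2⟩ := G.tour z z hb Conn.rfl'
  have h3 := tour_per h1 h2
  have h4 := G.long hb hr
  rw [h0, List.drop_append_of_le_length h4.le] at h3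
  exact ⟨_, h3⟩

theorem rect {z : List ℕ} {x y : ℤ} (hxy : x ≤ y) (hb : Base Up Dn (wd ω x y))
    (hr : ¬ Rt (wd ω x y)) (hw : Per ω (wt (wd ω x y))) (hc : Conn Up Dn (wd ω x y) z) :
    ∃ x' y', wd ω x' y' = z ∧ x ≤ x' ∧ x' ≤ x + wt (wd ω x y) ∧ y ≤ y' ∧
      y' ≤ y + wt (wd ω x y) ∧ x' ≤ y' := by
  obtain ⟨l1, l2, h0, h1, h2⟩ := G.tour _ z hb hc
  have h3 := tour_per h1 h2
  have h4 := G.long hb hr
  have h5 := wd_length' (ω := ω) hxy
  have h6 := eq_wd_of_period (l := wd ω x y ++ (l1 ++ l2)) (x := x) (y := y) (G.wt_pos _ hb) hw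
    (by omega) (List.prefix_append _ _) (by rw [← h0, h3]; exact List.prefix_append _ _)
  have h7 : wd ω x y ++ l1 <+: wd ω x (x + (wd ω x y ++ (l1 ++ l2)).length) := by
    rw [← h6, ← List.append_assoc]; exact List.prefix_append _ _
  have h8 := eq_wd_of_prefix (by omega) h7
  rw [h8] at h1
  have h9 := eq_wd_of_suffix (by omega) h1
  have h10 := h1.length_le
  have h11 := h2.length_le
  rw [← h8] at h10
  simp only [List.length_append] at h9 h10 h11
  refine ⟨_, _, h9.symm, ?_, ?_, ?_, ?_, ?_⟩ <;> push_cast <;> omega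

theorem in_arc {x y : ℤ} (hxy : x ≤ y) (hb : Base Up Dn (wd ω x y))
    (hr : ¬ Rt (wd ω x y)) (hw : Per ω (wt (wd ω x y))) {a : List ℕ}
    (ha : Arc Up Dn a (wd ω x y)) :
    (a = wd ω x (y - 1) ∧ Up (wd ω x y)) ∨ a = wd ω (x - 1) y := by
  have h4 := G.long hb hr
  have h5 := wd_length' (ω := ω) hxy
  rcases ha with ⟨h1, h2⟩ | ⟨h1, h2⟩
  · exact Or.inl ⟨by rw [h2, wd_dropLast (by omega)], h1⟩
  · right
    have ha : Arc Up Dn a (wd ω x y) := Or.inr ⟨h1, h2⟩
    obtain ⟨x', y', e, _, _, _, _, h6⟩ := G.rect hxy hb hr hw ha.conn.symm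
    have h7 : x' < y' := by
      rcases h6.lt_or_eq with h | h
      · exact h
      · exact absurd (by rw [← e, h, wd_self]) (G.dn_ne _ h1)
    rw [← e, wd_tail h7] at h2
    obtain ⟨h8, h9⟩ := per_of_wd_eq (by exact_mod_cast G.wt_pos _ hb) hw (by omega) h2.symm
    rw [← e]
    exact wd_shift' h8 (by ring) (by omega)

theorem out_arc {x y : ℤ} (hxy : x ≤ y) (hb : Base Up Dn (wd ω x y))
    (hr : ¬ Rt (wd ω x y)) (hw : Per ω (wt (wd ω x y))) {a : List ℕ}
    (ha : Arc Up Dn (wd ω x y) a) :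
    (a = wd ω x (y + 1) ∧ Up a) ∨ a = wd ω (x + 1) y := by
  have h4 := G.long hb hr
  have h5 := wd_length' (ω := ω) hxy
  rcases ha with ⟨h1, h2⟩ | ⟨h1, h2⟩
  · left
    refine ⟨?_, h1⟩
    have ha : Arc Up Dn (wd ω x y) a := Or.inl ⟨h1, h2⟩
    obtain ⟨x', y', e, _, _, _, _, h6⟩ := G.rect hxy hb hr hw ha.conn
    have h7 : x' < y' := by
      rcases h6.lt_or_eq with h | h
      · exact h
      · exact absurd (by rw [← e, h, wd_self]) (G.up_ne _ h1)
    rw [← e, wd_dropLast h7] at h2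
    obtain ⟨h8, h9⟩ := per_of_wd_eq (by exact_mod_cast G.wt_pos _ hb) hw (by omega) h2.symm
    rw [← e]
    exact wd_shift' h8 (by ring) (by omega)
  · exact Or.inr (by rw [h2, wd_tail (by omega)])

end Geo

/-- Points of the plane whose word lies in the component of `z`. -/
def Pt (Up Dn : List ℕ → Prop) (ω : ℤ → ℕ) (z : List ℕ) (x y : ℤ) : Prop :=
  x ≤ y ∧ Conn Up Dn (wd ω x y) z

/-- The component of `z` is not rooted and lies in the plane of `ω`. -/
structure Lives (Up Dn Rt : List ℕ → Prop) (wt : List ℕ → ℕ) (ω : ℤ → ℕ) (z : List ℕ) : Prop where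
  base : Base Up Dn z
  nr : ¬ Rt z
  per : Per ω (wt z)
  ex : ∃ x y, Pt Up Dn ω z x y

/-- The lower envelope of a component. -/
structure Env (Up Dn : List ℕ → Prop) (ω : ℤ → ℕ) (z : List ℕ) (lo : ℤ → ℤ) : Prop where
  pt : ∀ x, Pt Up Dn ω z x (lo x)
  le : ∀ x y, Pt Up Dn ω z x y → lo x ≤ y

theorem Pt.shift {z : List ℕ} {x y d : ℤ} (h : Pt Up Dn ω z x y) (hd : Per ω d) :
    Pt Up Dn ω z (x + d) (y + d) := ⟨by have := h.1; omega, by rw [wd_shift hd]; exact h.2⟩

theorem Env.shift {z : List ℕ} {lo : ℤ → ℤ} (E : Env Up Dn ω z lo) {d : ℤ} (hd : Per ω d)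
    (x : ℤ) : lo (x + d) = lo x + d := by
  have h1 := E.le _ _ ((E.pt x).shift hd)
  have h2 := E.le _ _ ((E.pt (x + d)).shift hd.neg)
  simp only [add_neg_cancel_right] at h2
  omega

namespace Geo

variable (G : Geo Up Dn Rt InV wt) {z : List ℕ} (L : Lives Up Dn Rt wt ω z)
include G L

omit G in
theorem pt_base {x y : ℤ} (h : Pt Up Dn ω z x y) : Base Up Dn (wd ω x y) :=
  h.2.base_iff.2 L.base

theorem pt_nr {x y : ℤ} (h : Pt Up Dn ω z x y) : ¬ Rt (wd ω x y) :=
  fun h' => L.nr ((G.rt_conn h.2).1 h')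

theorem pt_per {x y : ℤ} (h : Pt Up Dn ω z x y) : Per ω (wt (wd ω x y)) := by
  rw [G.wt_conn _ _ h.2]; exact L.per

theorem pt_long {x y : ℤ} (h : Pt Up Dn ω z x y) : x + wt z < y := by
  have h1 := G.long (pt_base L h) (G.pt_nr L h)
  have h2 := wd_length' (ω := ω) h.1
  rw [G.wt_conn _ _ h.2] at h1
  omega

theorem pt_in {x y : ℤ} (h : Pt Up Dn ω z x y) :
    Pt Up Dn ω z x (y - 1) ∨ Pt Up Dn ω z (x - 1) y := by
  obtain ⟨a, ha⟩ := G.hin _ (pt_base L h)
  have h1 := G.pt_long L h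
  rcases G.in_arc h.1 (pt_base L h) (G.pt_nr L h) (G.pt_per L h) ha with h2 | h2
  · exact Or.inl ⟨by omega, by rw [← h2.1]; exact ha.conn.trans h.2⟩
  · exact Or.inr ⟨by omega, by rw [← h2]; exact ha.conn.trans h.2⟩

theorem pt_out {x y : ℤ} (h : Pt Up Dn ω z x y) :
    (Pt Up Dn ω z x (y + 1) ∧ Up (wd ω x (y + 1))) ∨ Pt Up Dn ω z (x + 1) y := by
  obtain ⟨a, ha⟩ := G.hout _ (pt_base L h)
  have h1 := G.pt_long L h
  rcases G.out_arc h.1 (pt_base L h) (G.pt_nr L h) (G.pt_per L h) ha with h2 | h2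
  · exact Or.inl ⟨⟨by omega, by rw [← h2.1]; exact ha.conn.symm.trans h.2⟩, h2.1 ▸ h2.2⟩
  · exact Or.inr ⟨by omega, by rw [← h2]; exact ha.conn.symm.trans h.2⟩

theorem pt_left {x y : ℤ} (h : Pt Up Dn ω z x y) : ∃ y', Pt Up Dn ω z (x - 1) y' := by
  have key : ∀ n : ℕ, ∀ y, y - x ≤ n → Pt Up Dn ω z x y → ∃ y', Pt Up Dn ω z (x - 1) y' := by
    intro n
    induction n with
    | zero => intro y h1 h2; have := G.pt_long L h2; omega
    | succ n ih =>
      intro y h1 h2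
      rcases G.pt_in L h2 with h3 | h3
      · exact ih _ (by omega) h3
      · exact ⟨_, h3⟩
  exact key (y - x).toNat y (by omega) h

theorem exists_env : ∃ lo, Env Up Dn ω z lo := by
  have h0 : ∀ x, ∃ y, Pt Up Dn ω z x y := by
    obtain ⟨x0, y0, h⟩ := L.ex
    have key : ∀ n : ℕ, ∀ x y, Pt Up Dn ω z x y → ∃ y', Pt Up Dn ω z (x - n) y' := by
      intro n
      induction n with
      | zero => intro x y h; exact ⟨y, by simpa using h⟩
      | succ n ih =>
        intro x y h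
        obtain ⟨y', h'⟩ := ih x y h
        obtain ⟨y'', h''⟩ := G.pt_left L h'
        exact ⟨y'', by convert h'' using 1; push_cast; ring⟩
    intro x
    have hw : (0 : ℤ) < wt z := by exact_mod_cast G.wt_pos _ L.base
    obtain ⟨y', h'⟩ := key (x0 + |x - x0| * wt z - x).toNat _ _ (h.shift (L.per.mul |x - x0|))
    have h1 := le_abs_self (x - x0)
    have h2 := abs_nonneg (x - x0)
    have h3 : |x - x0| ≤ |x - x0| * wt z := by nlinarith
    exact ⟨y', by convert h' using 1; omega⟩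
  have h1 : ∀ x, ∃ y, Pt Up Dn ω z x y ∧ ∀ y', Pt Up Dn ω z x y' → y ≤ y' := fun x =>
    Int.exists_least_of_bdd ⟨x, fun y hy => hy.1⟩ (h0 x)
  choose lo h2 h3 using h1
  exact ⟨lo, h2, h3⟩

variable {lo : ℤ → ℤ} (E : Env Up Dn ω z lo)
include E

theorem env_step (x : ℤ) : Pt Up Dn ω z x (lo (x + 1)) := by
  rcases G.pt_in L (E.pt (x + 1)) with h | h
  · have := E.le _ _ h; omega
  · simpa using h

theorem env_mono {x x' : ℤ} (h : x ≤ x') : lo x ≤ lo x' := by
  induction x', h using Int.leInduction with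
  | base => rfl
  | succ n _ ih => exact ih.trans (E.le _ _ (G.env_step L E n))

theorem env_fill (x y : ℤ) (h1 : lo x ≤ y) (h2 : y ≤ lo (x + 1)) : Pt Up Dn ω z x y := by
  induction y, h1 using Int.leInduction with
  | base => exact E.pt x
  | succ n _ ih =>
    rcases G.pt_out L (ih (by omega)) with h | h
    · exact h.1
    · have := E.le _ _ h; omega

theorem env_up (x y : ℤ) (h1 : lo x < y) (h2 : y ≤ lo (x + 1)) : Up (wd ω x y) := by
  rcases G.pt_out L (G.env_fill L E x (y - 1) (by omega) (by omega)) with h | h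
  · simpa using h.2
  · have := E.le _ _ h; omega

theorem env_col (j : ℤ) : ∃ x, lo x < j ∧ j ≤ lo (x + 1) := by
  have hw : (0 : ℤ) < wt z := by exact_mod_cast G.wt_pos _ L.base
  obtain ⟨x, h1, h2⟩ := Int.exists_greatest_of_bdd (P := fun x => lo x < j)
    ⟨j, fun x hx => by have := (E.pt x).1; omega⟩ (by
      refine ⟨0 + -(|lo 0 - j| + 1) * wt z, ?_⟩
      rw [E.shift (L.per.mul _)]
      have h1 := le_abs_self (lo 0 - j)
      have h2 := abs_nonneg (lo 0 - j)
      nlinarith)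
  refine ⟨x, h1, ?_⟩
  by_contra h
  have := h2 (x + 1) (by omega)
  omega

/-- Maximality along the family of candidate words in the plane. -/
theorem maxi_pl {x y : ℤ} (k : ℕ) (h1 : lo x ≤ y) (h2 : y ≤ lo x + wt z)
    (hk : k ≤ (wd ω x y).length) (hb : (wd ω x y).take k <:+ wd ω x y)
    (hr : ∃ r, OnHook (wd ω x y) k r ∧ Rt r) (Zs : List (List ℕ)) (hne : Zs ≠ [])
    (hZ : ∀ u ∈ Zs, OnHook (wd ω x y) k u ∧ Base Up Dn u ∧ ¬ Rt u)
    (hp : Zs.Pairwise (fun u v => ¬ Conn Up Dn u v)) :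
    (Zs.map wt).sum < (wd ω x y).length - k := by
  have h3 := G.pt_long L (E.pt x)
  have hv := G.inV _ (pt_base L (E.pt x))
  have e := wd_append (ω := ω) (E.pt x).1 h1
  have hv2 : InV (wd ω (lo x) y) := by
    refine G.inV_sub _ _ hv ?_
    rw [wd_shift' L.per (x := lo x - wt z) (y := y - wt z) (by ring) (by ring)]
    exact wd_infix (by omega) (by omega) (by omega)
  have := G.maxi _ _ k hv hv2
  rw [e] at this
  exact this hk hb hr Zs hne hZ hp

theorem no_near {x y : ℤ} (h1 : lo x - wt z ≤ y) (h2 : y ≤ lo x + wt z) : ¬ Rt (wd ω x y) := by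
  intro hr
  have h3 := G.pt_long L (E.pt x)
  have key : ∀ y1, lo x ≤ y1 → y1 ≤ lo x + wt z → y1 - wt z ≤ y → y ≤ y1 → False := by
    intro y1 h4 h5 h6 h7
    have hl := wd_length' (ω := ω) (x := x) (y := y1) (by omega)
    have hl' := wd_length' (ω := ω) (x := x) (y := y) (by omega)
    have hl'' := wd_length' (ω := ω) (x := x) (y := lo x) (by omega)
    have := G.maxi_pl L E (y1 - wt z - x).toNat h4 h5 (by omega) (by
        rw [wd_take _ (by omega),
          ← wd_shift' L.per (x' := x + wt z) (y' := y1) rfl (by omega)]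
        exact wd_suffix (by omega) (by omega))
      ⟨_, ⟨by omega, Or.inl (wd_prefix (by omega) h7)⟩, hr⟩ [wd ω x (lo x)] (by simp)
      (by
        simp only [List.mem_singleton, forall_eq]
        exact ⟨⟨by omega, Or.inl (wd_prefix (by omega) h4)⟩, pt_base L (E.pt x),
          G.pt_nr L (E.pt x)⟩) (by simp)
    simp only [List.map_cons, List.map_nil, List.sum_cons, List.sum_nil,
      G.wt_conn _ _ (E.pt x).2] at this
    omega
  by_cases h : y ≤ lo x
  · exact key (y + wt z) (by omega) (by omega) (by omega) (by omega)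
  · exact key y (by omega) h2 (by omega) le_rfl

end Geo

end Vale.Agent.P333
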