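import Vale.Agent.P333.Table
import Vale.Agent.P333.Geom

/-!
The balanced subgraph of the hierarchical graph defined by the forced counts.
-/

namespace Vale.Agent.P333

/-- `n` copies of an arc, for `n` at most the length of `F`. -/
def rep (F : List ℕ) (n : ℕ) (e : Ar) : List Ar := (F.take n).map fun _ => e

/-- The arcs defined by the counts `f`. -/
def arcsOf (F : List ℕ) (V : List (List ℕ)) (A : List ℕ) (f : List ℕ → ℕ) : List Ar :=
  V.flatMap fun v => rep F (f v - lsum A f v) (v.dropLast, v) ++ rep F (f v - rsum A f v) (v, v.tail)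

/-- The arcs defined by the forced counts. -/
def arcs (S : List (List ℕ)) : List Ar := arcsOf (flat S) (infs S) (alph S) (mm S)

/-- There is an upward arc into `z`. -/
def Up (S : List (List ℕ)) (z : List ℕ) : Prop := lsum (alph S) (mm S) z < mm S z

/-- There is a downward arc out of `z`. -/
def Dn (S : List (List ℕ)) (z : List ℕ) : Prop := rsum (alph S) (mm S) z < mm S z

variable {S : List (List ℕ)}

theorem arcs_eq : arcs S = (infs S).flatMap fun v =>
    List.replicate (mm S v - lsum (alph S) (mm S) v) (v.dropLast, v) ++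
      List.replicate (mm S v - rsum (alph S) (mm S) v) (v, v.tail) := by
  unfold arcs arcsOf
  congr 1; funext v
  have := mm_le (S := S) v
  simp only [rep, List.map_const', List.length_take]
  rw [min_eq_left (by omega), min_eq_left (by omega)]

theorem mem_of_mm {z : List ℕ} (h : 0 < mm S z) : z ∈ infs S ∧ z ≠ [] :=
  ⟨by by_contra h'; rw [mm_zero h'] at h; omega, by rintro rfl; rw [mm_nil] at h; omega⟩

theorem mem_arcs {e : Ar} : e ∈ arcs S ↔ Arc (Up S) (Dn S) e.1 e.2 := by
  obtain ⟨a, b⟩ := e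
  simp only [arcs_eq, List.mem_flatMap, List.mem_append, List.mem_replicate, Prod.mk.injEq, Arc,
    Up, Dn]
  constructor
  · rintro ⟨v, -, ⟨h1, rfl, rfl⟩ | ⟨h1, rfl, rfl⟩⟩
    · exact Or.inl ⟨by omega, rfl⟩
    · exact Or.inr ⟨by omega, rfl⟩
  · rintro (⟨h1, rfl⟩ | ⟨h1, rfl⟩)
    · exact ⟨b, (mem_of_mm (by omega)).1, Or.inl ⟨by omega, rfl, rfl⟩⟩
    · exact ⟨a, (mem_of_mm (by omega)).1, Or.inr ⟨by omega, rfl, rfl⟩⟩

theorem arcs_valid {e : Ar} (h : e ∈ arcs S) : Valid e := by
  rcases mem_arcs.1 h with ⟨h1, h2⟩ | ⟨h1, h2⟩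
  · exact Or.inl ⟨(mem_of_mm (S := S) (by unfold Up at h1; omega)).2, h2⟩
  · exact Or.inr ⟨(mem_of_mm (S := S) (by unfold Dn at h1; omega)).2, h2⟩

theorem sumV_drop {g : List ℕ → ℕ} (hg : ∀ v, g v ≠ 0 → v ∈ infs S ∧ v ≠ []) (x : List ℕ) :
    ((infs S).map fun v => if v.dropLast = x then g v else 0).sum = rsum (alph S) g x := by
  rw [rsum, ← List.sum_toFinset _ infs_nodup, ← List.sum_toFinset _ alph_nodup]
  symm
  refine Finset.sum_bij_ne_zero (fun a _ _ => x ++ [a]) ?_ ?_ ?_ ?_
  · intro a _ h; exact List.mem_toFinset.2 (hg _ h).1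
  · intro a _ _ b _ _ h; simpa using h
  · intro v hv h
    split_ifs at h with h1
    swap
    · exact absurd rfl h
    obtain ⟨h2, h3⟩ := hg v h
    have e := List.dropLast_append_getLast h3
    rw [h1] at e
    exact ⟨_, List.mem_toFinset.2 (infs_alph h2 (List.getLast_mem h3)), by rwa [e], e⟩
  · intro a _ _; simp

theorem sumV_tail {g : List ℕ → ℕ} (hg : ∀ v, g v ≠ 0 → v ∈ infs S ∧ v ≠ []) (x : List ℕ) :
    ((infs S).map fun v => if v.tail = x then g v else 0).sum = lsum (alph S) g x := by
  rw [lsum, ← List.sum_toFinset _ infs_nodup, ← List.sum_toFinset _ alph_nodup]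
  symm
  refine Finset.sum_bij_ne_zero (fun a _ _ => a :: x) ?_ ?_ ?_ ?_
  · intro a _ h; exact List.mem_toFinset.2 (hg _ h).1
  · intro a _ _ b _ _ h; simpa using h
  · intro v hv h
    split_ifs at h with h1
    swap
    · exact absurd rfl h
    obtain ⟨h2, h3⟩ := hg v h
    have e := List.cons_head_tail h3
    rw [h1] at e
    exact ⟨_, List.mem_toFinset.2 (infs_alph h2 (List.head_mem h3)), by rwa [e], e⟩
  · intro a _ _; simp

theorem sumV_self {g : List ℕ → ℕ} (hg : ∀ v, g v ≠ 0 → v ∈ infs S ∧ v ≠ []) (x : List ℕ) :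
    ((infs S).map fun v => if v = x then g v else 0).sum = g x := by
  rw [← List.sum_toFinset _ infs_nodup, Finset.sum_ite_eq']
  split_ifs with h
  · rfl
  · by_contra h'
    exact h (List.mem_toFinset.2 (hg x (Ne.symm h')).1)

theorem arcs_bal : Bal (arcs S) := by
  intro x
  have hu : ∀ v, mm S v - lsum (alph S) (mm S) v ≠ 0 → v ∈ infs S ∧ v ≠ [] :=
    fun v h => mem_of_mm (by omega)
  have hd : ∀ v, mm S v - rsum (alph S) (mm S) v ≠ 0 → v ∈ infs S ∧ v ≠ [] :=
    fun v h => mem_of_mm (by omega)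
  have e1 : outd (arcs S) x = rsum (alph S) (fun v => mm S v - lsum (alph S) (mm S) v) x +
      (mm S x - rsum (alph S) (mm S) x) := by
    rw [← sumV_drop hu, ← sumV_self hd x, ← List.sum_map_add, outd, arcs_eq, List.countP_flatMap]
    simp [List.countP_replicate, Function.comp_def]
  have e2 : ind (arcs S) x = (mm S x - lsum (alph S) (mm S) x) +
      lsum (alph S) (fun v => mm S v - rsum (alph S) (mm S) v) x := by
    rw [← sumV_tail hd, ← sumV_self hu x, ← List.sum_map_add, ind, arcs_eq, List.countP_flatMap]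
    simp [List.countP_replicate, Function.comp_def]
  have e3 : rsum (alph S) (fun v => mm S v - lsum (alph S) (mm S) v) x +
      rsum (alph S) (lsum (alph S) (mm S)) x = rsum (alph S) (mm S) x := by
    simp only [rsum, ← List.sum_map_add]
    congr 1
    exact List.map_congr_left fun a _ => Nat.sub_add_cancel (lsum_le_mm (by simp))
  have e4 : lsum (alph S) (fun v => mm S v - rsum (alph S) (mm S) v) x +
      lsum (alph S) (rsum (alph S) (mm S)) x = lsum (alph S) (mm S) x := by
    simp only [lsum, ← List.sum_map_add]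
    congr 1
    exact List.map_congr_left fun a _ => Nat.sub_add_cancel (rsum_le_mm (by simp))
  have e5 : rsum (alph S) (lsum (alph S) (mm S)) x = lsum (alph S) (rsum (alph S) (mm S)) x := by
    simp only [lsum, rsum, ← List.sum_toFinset _ alph_nodup, List.cons_append]
    exact Finset.sum_comm
  by_cases hx : x = []
  · have e6 : rsum (alph S) (mm S) x = lsum (alph S) (mm S) x := by simp [hx, lsum, rsum]
    have e7 : mm S x = 0 := hx ▸ mm_nil
    omega
  · have := lsum_le_mm (S := S) hx
    have := rsum_le_mm (S := S) hx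
    omega

theorem cost_arcs {T : List ℕ} (hS : ∀ s ∈ S, s <:+: T) : cost (arcs S) ≤ T.length := by
  have hm : ∀ v, mm S v ≠ 0 → v ∈ infs S ∧ v ≠ [] := fun v h => mem_of_mm (by omega)
  have e1 : cost (arcs S) ≤ ((infs S).map fun v => mm S v - lsum (alph S) (mm S) v).sum := by
    rw [cost_eq, arcs_eq, List.map_flatMap, List.flatMap_def, List.sum_flatten, List.map_map]
    refine List.sum_le_sum fun v _ => ?_
    simp only [Function.comp, List.map_append, List.map_replicate, List.sum_append,
      List.sum_replicate, List.length_dropLast, List.length_tail, smul_eq_mul]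
    rw [show v.length - 1 - v.length = 0 by omega, mul_zero, add_zero]
    exact mul_le_of_le_one_right (by omega) (by omega)
  have e2 : ((infs S).map (mm S)).sum ≤ ((infs S).map (lsum (alph S) (mm S))).sum := by
    have : lsum (alph S) (mm S) = fun x =>
        ((infs S).map fun v => if v.tail = x then mm S v else 0).sum :=
      funext fun x => (sumV_tail hm x).symm
    rw [this]
    simp only [← List.sum_toFinset _ infs_nodup]
    rw [Finset.sum_comm]
    refine Finset.sum_le_sum fun v hv => ?_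
    rw [Finset.sum_ite_eq, if_pos]
    exact List.mem_toFinset.2 (infs_sub (List.mem_toFinset.1 hv) (List.tail_suffix v).isInfix)
  have e3 : ((infs S).map fun v => mm S v - lsum (alph S) (mm S) v).sum +
      ((infs S).map (lsum (alph S) (mm S))).sum ≤
      ((infs S).map (mm S)).sum + lsum (alph S) (mm S) [] := by
    rw [← List.sum_map_add]
    refine le_trans (List.sum_le_sum (g := fun v => mm S v +
      if v = [] then lsum (alph S) (mm S) [] else 0) fun v _ => ?_) ?_
    · split_ifs with h
      · subst h; simp [mm_nil]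
      · have := lsum_le_mm (S := S) h; omega
    · rw [List.sum_map_add, ← List.sum_toFinset (fun v => if v = [] then _ else 0) infs_nodup,
        Finset.sum_ite_eq']
      split_ifs <;> omega
  have hT : ∀ a ∈ T.filter (· ∈ alph S), a ∈ alph S := fun a ha => by
    simpa using (List.mem_filter.1 ha).2
  have hS' : ∀ s ∈ S, s <:+: T.filter (· ∈ alph S) := fun s hs => by
    have := (hS s hs).filter (· ∈ alph S)
    rwa [List.filter_eq_self.2 fun a ha => by simpa using mem_alph.2 ⟨s, hs, ha⟩] at this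
  have e4 : lsum (alph S) (mm S) [] ≤ lsum (alph S) (cnt (T.filter (· ∈ alph S))) [] :=
    sum_map_le fun a _ => (mm_main hT hS' _ (by simp)).1
  have e5 := cnt_lsum alph_nodup hT []
  rw [cnt_nil, if_pos List.nil_prefix] at e5
  have := List.length_filter_le (· ∈ alph S) T
  omega

theorem Path.len {a b l} (h : Path a b l) (hv : ∀ e ∈ l, Valid e) :
    b.length + l.length = a.length + 2 * cost l := by
  rw [cost_eq]
  induction h with
  | nil => simp
  | @cons a b c t _ ih =>
    have h1 := ih fun e he => hv e (List.mem_cons_of_mem _ he)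
    simp only [List.length_cons, List.map_cons, List.sum_cons]
    rcases hv _ List.mem_cons_self with ⟨h3, h4⟩ | ⟨h3, h4⟩
    · have := List.length_pos_iff.2 h3
      have := congrArg List.length h4
      simp only [List.length_dropLast] at *
      omega
    · have := List.length_pos_iff.2 h3
      have := congrArg List.length h4
      simp only [List.length_tail] at *
      omega

theorem absorb_closed {r t R₀} (ht : Path r r t) (hR : Bal R₀) {e : Ar} (he : e ∈ R₀) :
    (e ∈ (absorb r t R₀).1 ∧ Vt r (absorb r t R₀).1 e.1 ∧ Vt r (absorb r t R₀).1 e.2) ∨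
      (¬ Vt r (absorb r t R₀).1 e.1 ∧ ¬ Vt r (absorb r t R₀).1 e.2) := by
  obtain ⟨h1, -, h3, Ab, h4, h5⟩ := absorb_spec ht hR
  rcases List.mem_append.1 (h5.subset he) with h | h
  · have h6 := h4.symm.subset (List.mem_append_right _ h)
    exact Or.inl ⟨h6, h1.src h6, Or.inr ⟨e, h6, rfl⟩⟩
  · exact Or.inr (h3 e h)

open Classical in
/-- The weight of a component. -/
noncomputable def wt (S : List (List ℕ)) (z : List ℕ) : ℕ :=
  cost ((arcs S).filter fun e => decide (Conn (Up S) (Dn S) e.1 z))

theorem exists_tour (z : List ℕ) : ∃ B, Path z z B ∧ (∀ e ∈ B, Valid e) ∧ cost B = wt S z ∧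
    (∀ e ∈ arcs S, e.1 = z → e ∈ B) ∧ ∀ v, Conn (Up S) (Dn S) z v → Vt z B v := by
  classical
  obtain ⟨h1, -, h3, Ab, h4, h5⟩ := absorb_spec (Path.nil z) (arcs_bal (S := S))
  have h6 := fun e (he : e ∈ arcs S) => absorb_closed (Path.nil z) arcs_bal he
  generalize absorb z [] (arcs S) = s at *
  have h7 : (arcs S).Perm (s.1 ++ s.2) := h5.trans (h4.symm.append_right _)
  have h8 : ∀ e ∈ s.1, e ∈ arcs S := fun e he => h7.symm.subset (List.mem_append_left _ he)
  have h9 : ∀ a b, Conn (Up S) (Dn S) a b → (Vt z s.1 a ↔ Vt z s.1 b) := by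
    intro a b h
    induction h with
    | rel a b h =>
      exact (h6 (a, b) (mem_arcs.2 h)).elim (fun h => iff_of_true h.2.1 h.2.2)
        (fun h => iff_of_false h.1 h.2)
    | refl => rfl
    | symm _ _ _ ih => exact ih.symm
    | trans _ _ _ _ _ ih ih' => exact ih.trans ih'
  refine ⟨s.1, h1, fun e he => arcs_valid (h8 e he), ?_, fun e he h => ?_,
    fun v hv => (h9 _ _ hv).1 (Or.inl rfl)⟩
  · rw [wt, cost_perm (h7.filter _), List.filter_append, List.filter_eq_self.2,
      List.filter_eq_nil_iff.2, List.append_nil]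
    · intro e he
      simp only [decide_eq_true_eq]
      exact fun h => (h3 e he).1 ((h9 _ _ h).2 (Or.inl rfl))
    · intro e he
      simp only [decide_eq_true_eq]
      exact (h1.closure (P := fun v => Conn (Up S) (Dn S) v z)
        (fun e he h => (mem_arcs.1 (h8 e he)).conn.symm.trans h) Conn.rfl').2 _ (h1.src he)
  · rcases h6 e he with h' | h'
    · exact h'.1
    · exact absurd (Or.inl h) h'.1

theorem base_out {z : List ℕ} (h : Base (Up S) (Dn S) z) : ∃ y, Arc (Up S) (Dn S) z y := by
  obtain ⟨y, h | h⟩ := h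
  · exact ⟨y, h⟩
  · obtain ⟨e, he, h1⟩ := outd_pos.1 ((arcs_bal z).symm ▸ ind_pos.2 ⟨(y, z), mem_arcs.2 h, rfl⟩)
    exact ⟨e.2, h1 ▸ mem_arcs.1 he⟩

theorem base_in {z : List ℕ} (h : Base (Up S) (Dn S) z) : ∃ y, Arc (Up S) (Dn S) y z := by
  obtain ⟨y, h | h⟩ := h
  · obtain ⟨e, he, h1⟩ := ind_pos.1 ((arcs_bal z) ▸ outd_pos.2 ⟨(z, y), mem_arcs.2 h, rfl⟩)
    exact ⟨e.1, h1 ▸ mem_arcs.1 he⟩
  · exact ⟨y, h⟩

theorem wt_pos {z : List ℕ} (h : Base (Up S) (Dn S) z) : 0 < wt S z := by
  obtain ⟨B, h1, h2, h3, h4, -⟩ := exists_tour (S := S) z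
  obtain ⟨y, hy⟩ := base_out h
  have h5 := List.length_pos_of_mem (h4 (z, y) (mem_arcs.2 hy) rfl)
  have := h1.len h2
  omega

theorem wt_conn {a b : List ℕ} (h : Conn (Up S) (Dn S) a b) : wt S a = wt S b := by
  unfold wt
  congr 2; funext e
  exact decide_eq_decide.2 ⟨fun h' => h'.trans h, fun h' => h'.trans h.symm⟩

theorem tour_split {z z' : List ℕ} (h : Conn (Up S) (Dn S) z z') : ∃ l1 l2 : List ℕ,
    l1.length + l2.length = wt S z ∧ z' <:+ z ++ l1 ∧ z <:+ z' ++ l2 := by
  obtain ⟨B, h1, h2, h3, -, h5⟩ := exists_tour (S := S) z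
  obtain ⟨l1, l2, rfl, h6, h7⟩ := h1.split_at (h5 _ h)
  exact ⟨spell l1, spell l2, by rw [← h3, cost_append]; rfl,
    h6.spell_suffix fun e he => h2 e (List.mem_append_left _ he),
    h7.spell_suffix fun e he => h2 e (List.mem_append_right _ he)⟩

theorem base_infs {z : List ℕ} (h : Base (Up S) (Dn S) z) : z ∈ infs S := by
  obtain ⟨y, ⟨h1, rfl⟩ | ⟨h1, -⟩⟩ := base_out h
  · exact infs_sub (mem_of_mm (S := S) (by unfold Up at h1; omega)).1
      (List.dropLast_prefix y).isInfix
  · exact (mem_of_mm (S := S) (by unfold Dn at h1; omega)).1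

theorem rule_pl (ω : ℤ → ℕ) (p : ℕ) (i j : ℤ) (hp : 0 < p) (hper : Per ω p) (hij : i < j)
    (hup : Up S (wd ω (i - p) j)) : (∃ x, i - p < x ∧ x ≤ i ∧ Up S (wd ω x j)) ∨
    (∃ x y c, i - p < x ∧ x ≤ i ∧ j ≤ y ∧ c ≠ ω (x - 1) ∧ Dn S (c :: wd ω x y)) := by
  by_contra hc
  push Not at hc
  obtain ⟨h1, h2⟩ := hc
  have l1 := wd_length' (ω := ω) (x := i - p) (y := j) (by omega)
  have l2 := wd_length' (ω := ω) hij.le
  have l3 : (wd ω (i - p) j).length - (wd ω i j).length = p := by omega
  refine h1 i (by omega) le_rfl (mm_flag (wd_ne_nil hij)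
    (mem_of_mm (S := S) (by unfold Up at hup; omega)).1
    ⟨by omega, ?_, wd_suffix (by omega) hij.le, hup, fun n h3 h4 => ⟨fun h5 => ?_, ?_⟩⟩)
  · rw [wd_shift' hper (x := i - p) (y := j - p) (by ring) (by ring)]
    exact wd_prefix (by omega) (by omega)
  · rw [wd_drop n (by omega)]
    exact not_lt.1 (h1 _ (by omega) (by omega))
  · rw [l3] at h4 ⊢
    intro y _ h5 h6 h7
    have h8 := eq_wd_of_period hp hper (by omega) h5 h6
    have h9 := h5.length_le
    have h10 : (List.take n (wd ω (i - p) j) ++ y.tail).drop n = y.tail :=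
      List.drop_left' (by simp; omega)
    have h11 : (List.take n (wd ω (i - p) j) ++ y.tail).length = n + (y.length - 1) := by
      simp; omega
    generalize List.take n (wd ω (i - p) j) ++ y.tail = z at *
    rw [h8, wd_drop _ (by omega)] at h7 h10
    rcases y with _ | ⟨c, y⟩
    · simp at h11; omega
    rw [List.tail_cons] at h10
    rw [show i - p + (n - 1 : ℕ) = i - p + n - 1 by omega, wd_cons' (by omega), h10] at h7
    rw [← h10]
    exact not_lt.1 (h2 _ _ c (by omega) (by omega) (by omega) fun h => h7 (by rw [h]))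

theorem exists_base {z : List ℕ} (h : 0 < mm S z) : ∃ b, Base (Up S) (Dn S) b ∧ z <:+: b := by
  have key : ∀ k, ∀ z : List ℕ, (flat S).length - z.length < k → 0 < mm S z →
      ∃ b, Base (Up S) (Dn S) b ∧ z <:+: b := by
    intro k
    induction k with
    | zero => intro z h; omega
    | succ k ih =>
      intro z h1 h2
      by_cases h3 : Up S z
      · exact ⟨z, ⟨_, Or.inr (Or.inl ⟨h3, rfl⟩)⟩, List.infix_rfl⟩
      · have h4 : lsum (alph S) (mm S) z ≠ 0 := by unfold Up at h3; omega
        simp only [lsum, ne_eq, List.sum_eq_zero_iff, List.mem_map, forall_exists_index, and_imp,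
          forall_apply_eq_imp_iff₂, not_forall] at h4
        obtain ⟨a, -, h5⟩ := h4
        have h6 := infs_length (mem_of_mm (Nat.pos_of_ne_zero h5)).1
        obtain ⟨b, h7, h8⟩ := ih (a :: z) (by simp at h6 ⊢; omega) (Nat.pos_of_ne_zero h5)
        exact ⟨b, h7, (List.suffix_cons a z).isInfix.trans h8⟩
  exact key _ z (Nat.lt_succ_self _) h

end Vale.Agent.P333
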