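import Vale.Agent.P333.Graph
import Vale.Agent.P333.Cover

/-!
Connecting the components greedily, and the approximation guarantee.
-/

namespace Vale.Agent.P333

open Vale.Agent.Lib.H24.T (lcase)

/-- The closed walk from the border of length `k` up to `y` and down again. -/
def hook (y : List ℕ) (k : ℕ) : List Ar :=
  ((rg y).drop k).map (fun n => (y.take n, y.take (n + 1))) ++
    ((rg y).take (y.length - k)).map fun n => (y.drop n, y.drop (n + 1))

theorem up_path (y : List ℕ) (m k : ℕ) : Path (y.take k) (y.take (k + m))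
    ((List.range' k m).map fun n => (y.take n, y.take (n + 1))) := by
  induction m generalizing k with
  | zero => exact Path.nil _
  | succ m ih =>
    rw [List.range'_succ, List.map_cons, show k + (m + 1) = k + 1 + m by omega]
    exact (ih (k + 1)).cons

theorem down_path (y : List ℕ) (m k : ℕ) : Path (y.drop k) (y.drop (k + m))
    ((List.range' k m).map fun n => (y.drop n, y.drop (n + 1))) := by
  induction m generalizing k with
  | zero => exact Path.nil _
  | succ m ih =>
    rw [List.range'_succ, List.map_cons, show k + (m + 1) = k + 1 + m by omega]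
    exact (ih (k + 1)).cons

theorem hook_eq (y : List ℕ) (k : ℕ) : hook y k =
    (List.range' k (y.length - k)).map (fun n => (y.take n, y.take (n + 1))) ++
      (List.range' 0 (y.length - k)).map fun n => (y.drop n, y.drop (n + 1)) := by
  rw [hook, rg, List.take_range, min_eq_left (by omega), List.range_eq_range', List.range_eq_range',
    List.drop_range']
  simp

theorem hook_path {y : List ℕ} {k : ℕ} (hk : k ≤ y.length) (hb : y.take k <:+ y) :
    Path (y.take k) (y.take k) (hook y k) := by
  have h1 := up_path y (y.length - k) k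
  have h2 := down_path y (y.length - k) 0
  have h3 := List.suffix_iff_eq_drop.1 hb
  rw [List.length_take, min_eq_left hk] at h3
  rw [show k + (y.length - k) = y.length by omega, List.take_length] at h1
  rw [zero_add, ← h3, List.drop_zero] at h2
  rw [hook_eq]
  exact h1.append h2

theorem hook_valid {y : List ℕ} {k : ℕ} {e : Ar} (he : e ∈ hook y k) : Valid e := by
  rw [hook_eq] at he
  simp only [List.mem_append, List.mem_map, List.mem_range'_1] at he
  rcases he with ⟨n, h, rfl⟩ | ⟨n, h, rfl⟩
  · refine Or.inl ⟨List.length_pos_iff.1 (by simp; omega), ?_⟩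
    simp only [List.dropLast_eq_take, List.length_take, List.take_take]
    congr 1; omega
  · exact Or.inr ⟨List.length_pos_iff.1 (by simp; omega), by simp⟩

theorem hook_cost {y : List ℕ} {k : ℕ} (hk : k ≤ y.length) (hb : y.take k <:+ y) :
    cost (hook y k) = y.length - k := by
  have h1 := (hook_path hk hb).len fun e he => hook_valid he
  have h2 : (hook y k).length = 2 * (y.length - k) := by rw [hook_eq]; simp; omega
  omega

theorem hook_vt {y z : List ℕ} {k : ℕ} (h : OnHook y k z) : Vt (y.take k) (hook y k) z := by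
  have key : ∀ z, k ≤ z.length → z <+: y → Vt (y.take k) (hook y k) z := by
    intro z h1 h2
    have h3 := List.prefix_iff_eq_take.1 h2
    have h4 := h2.length_le
    rcases h1.eq_or_lt with h | h
    · exact Or.inl (h ▸ h3)
    · refine Or.inr ⟨(y.take (z.length - 1), y.take (z.length - 1 + 1)), ?_, ?_⟩
      · rw [hook_eq]
        exact List.mem_append_left _ (List.mem_map.2 ⟨_, List.mem_range'_1.2 (by omega), rfl⟩)
      · rw [show z.length - 1 + 1 = z.length by omega]; exact h3.symm
  obtain ⟨h1, h2 | h2⟩ := h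
  · exact key z h1 h2
  · have h3 := List.suffix_iff_eq_drop.1 h2
    rcases h2.length_le.eq_or_lt with h | h
    · exact key z h1 (by rw [h2.eq_of_length h])
    · refine Or.inr ⟨(y.drop (y.length - z.length - 1), y.drop (y.length - z.length - 1 + 1)),
        ?_, ?_⟩
      · rw [hook_eq]
        exact List.mem_append_right _ (List.mem_map.2 ⟨_, List.mem_range'_1.2 (by omega), rfl⟩)
      · rw [show y.length - z.length - 1 + 1 = y.length - z.length by omega]; exact h3.symm

/-- The candidate closed walks. -/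
def cands (V : List (List ℕ)) : List (List ℕ × ℕ) :=
  V.flatMap fun a => V.flatMap fun b => ((rng (a ++ b)).filter fun k =>
    eqw ((a ++ b).take k) ((a ++ b).drop ((a ++ b).length - k))).map fun k => (a ++ b, k)

theorem mem_cands {V : List (List ℕ)} {c : List ℕ × ℕ} : c ∈ cands V ↔
    (∃ a ∈ V, ∃ b ∈ V, a ++ b = c.1) ∧ c.2 ≤ c.1.length ∧ c.1.take c.2 <:+ c.1 := by
  simp only [cands, List.mem_flatMap, List.mem_map, List.mem_filter, mem_rng, eqw_iff]
  constructor
  · rintro ⟨a, ha, b, hb, k, ⟨h1, h2⟩, rfl⟩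
    exact ⟨⟨a, ha, b, hb, rfl⟩, h1, by rw [h2]; exact List.drop_suffix _ _⟩
  · obtain ⟨y, k⟩ := c
    rintro ⟨⟨a, ha, b, hb, rfl⟩, h1, h2⟩
    have h3 := List.suffix_iff_eq_drop.1 h2
    rw [List.length_take, min_eq_left h1] at h3
    exact ⟨a, ha, b, hb, k, ⟨h1, h3⟩, rfl⟩

/-- The result of adding a candidate. -/
def res (s : List Ar × List Ar) (c : List ℕ × ℕ) : List Ar × List Ar :=
  absorb [] s.1 (hook c.1 c.2 ++ s.2)

/-- The acceptance test, given the old state `s` and the new state `s'`. -/
def okc (s s' : List Ar × List Ar) (c : List ℕ × ℕ) : Bool :=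
  (eqw (c.1.take c.2) [] || s'.1.any fun e => eqw e.2 (c.1.take c.2)) &&
    (decide (cost s'.2 + (c.1.length - c.2) ≤ cost s.2) && decide (s'.2.length < s.2.length))

/-- One greedy step. -/
def gstep (C : List (List ℕ × ℕ)) (s : List Ar × List Ar) : List Ar × List Ar :=
  lcase (C.filter fun c => okc s (res s c) c) s fun c _ => res s c

/-- The final state. -/
def final (C : List (List ℕ × ℕ)) (E : List Ar) : List Ar × List Ar :=
  (gstep C)^[E.length] (absorb [] [] E)

/-- The algorithm. -/
def alg (S : List (List ℕ)) : List ℕ := spell (final (cands (infs S)) (arcs S)).1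

theorem okc_iff {s s' c} : okc s s' c = true ↔ Vt [] s'.1 (c.1.take c.2) ∧
    cost s'.2 + (c.1.length - c.2) ≤ cost s.2 ∧ s'.2.length < s.2.length := by
  simp only [okc, Vt, Bool.and_eq_true, Bool.or_eq_true, eqw_iff, List.any_eq_true,
    decide_eq_true_eq]

/-- The invariant of the greedy loop. -/
structure GInv (E : List Ar) (s : List Ar × List Ar) : Prop where
  path : Path [] [] s.1
  valid : ∀ e ∈ s.1, Valid e
  validR : ∀ e ∈ s.2, Valid e
  bal : Bal s.2
  out : ∀ f ∈ s.2, ¬ Vt [] s.1 f.1 ∧ ¬ Vt [] s.1 f.2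
  used : ∃ Ab, E.Perm (Ab ++ s.2) ∧ ∀ e ∈ Ab, Vt [] s.1 e.1 ∧ Vt [] s.1 e.2
  bound : cost s.1 + 2 * cost s.2 ≤ 2 * cost E

open Classical in
theorem res_spec {E s} {c : List ℕ × ℕ} (h : GInv E s) (hk : c.2 ≤ c.1.length)
    (hb : c.1.take c.2 <:+ c.1) :
    (∀ v, Vt [] s.1 v → Vt [] (res s c).1 v) ∧
    (∀ e ∈ hook c.1 c.2 ++ s.2, Vt [] (res s c).1 e.1 ↔ Vt [] (res s c).1 e.2) ∧
    (Vt [] (res s c).1 (c.1.take c.2) →
      s.2.Perm (s.2.filter (fun e => decide (Vt [] (res s c).1 e.1)) ++ (res s c).2)) := by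
  have hC := hook_path hk hb
  obtain ⟨h1, -, h3, Ab, h4, h5⟩ := absorb_spec h.path (hC.bal.append h.bal)
  have h6 := fun e (he : e ∈ hook c.1 c.2 ++ s.2) => absorb_closed h.path (hC.bal.append h.bal) he
  unfold res
  generalize absorb [] s.1 (hook c.1 c.2 ++ s.2) = s' at *
  have h7 : ∀ e ∈ hook c.1 c.2 ++ s.2, Vt [] s'.1 e.1 ↔ Vt [] s'.1 e.2 := fun e he =>
    (h6 e he).elim (fun h => iff_of_true h.2.1 h.2.2) fun h => iff_of_false h.1 h.2
  refine ⟨?_, h7, fun hv => ?_⟩
  · rintro v (h | ⟨e, he, h⟩)
    · exact Or.inl h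
    · exact Or.inr ⟨e, h4.symm.subset (List.mem_append_left _ he), h⟩
  · have h8 := h5.filter fun e => !decide (Vt [] s'.1 e.1)
    rw [List.filter_append, List.filter_append, (List.filter_eq_nil_iff (l := hook _ _)).2,
      (List.filter_eq_nil_iff (l := Ab)).2, (List.filter_eq_self (l := s'.2)).2] at h8
    · exact (List.filter_append_perm _ _).symm.trans (List.Perm.append_left _ h8)
    · intro e he; simpa using (h3 e he).1
    · intro e he; simpa using h1.src (h4.symm.subset (List.mem_append_right _ he))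
    · intro e he
      simpa using (hC.closure (fun e he => (h7 e (List.mem_append_left _ he)).1) hv).2 _
        (hC.src he)

theorem GInv.step {E s} {c : List ℕ × ℕ} (h : GInv E s) (hk : c.2 ≤ c.1.length)
    (hb : c.1.take c.2 <:+ c.1) (hok : okc s (res s c) c = true) : GInv E (res s c) := by
  classical
  obtain ⟨h0, h1, h2⟩ := res_spec h hk hb
  obtain ⟨h3, h4, -⟩ := okc_iff.1 hok
  have hC := hook_path hk hb
  obtain ⟨h5, h6, h7, Ab, h8, h9⟩ := absorb_spec h.path (hC.bal.append h.bal)
  obtain ⟨Ab', h10, h11⟩ := h.used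
  have hv : ∀ e ∈ hook c.1 c.2 ++ s.2, Valid e := fun e he =>
    (List.mem_append.1 he).elim hook_valid (h.validR e)
  refine ⟨h5, fun e he => ?_, fun e he => hv e (h9.symm.subset (List.mem_append_right _ he)), h6,
    h7, ⟨Ab' ++ _, h10.trans (by rw [List.append_assoc]; exact (h2 h3).append_left _),
      fun e he => ?_⟩, ?_⟩
  · exact (List.mem_append.1 (h8.subset he)).elim (h.valid e)
      fun he => hv e (h9.symm.subset (List.mem_append_left _ he))
  · rcases List.mem_append.1 he with he | he
    · exact ⟨h0 _ (h11 e he).1, h0 _ (h11 e he).2⟩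
    · obtain ⟨h12, h13⟩ := List.mem_filter.1 he
      have h14 := of_decide_eq_true h13
      exact ⟨h14, (h1 e (List.mem_append_right _ h12)).1 h14⟩
  · have e1 := cost_perm h8
    have e2 := cost_perm h9
    have e3 := h.bound
    rw [cost_append] at e1
    rw [cost_append, cost_append, hook_cost hk hb] at e2
    unfold res at h4 ⊢
    omega

theorem final_spec {C : List (List ℕ × ℕ)} {E : List Ar} (hE : Bal E) (hv : ∀ e ∈ E, Valid e)
    (hC : ∀ c ∈ C, c.2 ≤ c.1.length ∧ c.1.take c.2 <:+ c.1) :
    GInv E (final C E) ∧ ∀ c ∈ C, okc (final C E) (res (final C E) c) c = false := by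
  have key : ∀ n s, GInv E s → s.2.length ≤ n → GInv E ((gstep C)^[n] s) ∧
      ∀ c ∈ C, okc ((gstep C)^[n] s) (res ((gstep C)^[n] s) c) c = false := by
    intro n
    induction n with
    | zero =>
      intro s h hn
      refine ⟨h, fun c _ => ?_⟩
      rw [← Bool.not_eq_true, okc_iff]
      simp only [Function.iterate_zero, id_eq]
      omega
    | succ n ih =>
      intro s h hn
      rcases hF : C.filter fun c => okc s (res s c) c with _ | ⟨c, F⟩
      · have h1 : gstep C s = s := by rw [gstep, hF]; rfl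
        rw [Function.iterate_fixed h1]
        exact ⟨h, by simpa using hF⟩
      · have h1 : gstep C s = res s c := by rw [gstep, hF]; rfl
        have h2 : c ∈ C.filter fun c => okc s (res s c) c := by rw [hF]; simp
        obtain ⟨h3, h4⟩ := List.mem_filter.1 h2
        rw [Function.iterate_succ_apply, h1]
        have := (okc_iff.1 h4).2.2
        exact ih _ (h.step (hC c h3).1 (hC c h3).2 h4) (by omega)
  obtain ⟨h5, h6, h7, Ab, h8, h9⟩ := absorb_spec (Path.nil []) hE
  have h10 := h9.length_eq
  refine key _ _ ⟨h5, fun e he => hv e (h9.symm.subset (List.mem_append_left _ (h8.subset he))),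
    fun e he => hv e (h9.symm.subset (List.mem_append_right _ he)), h6, h7,
    ⟨Ab, h9, fun e he => ?_⟩, ?_⟩ (by simp at h10; omega)
  · have := h8.symm.subset he
    exact ⟨h5.src this, Or.inr ⟨e, this, rfl⟩⟩
  · have e1 := cost_perm h8
    have e2 := cost_perm h9
    rw [cost_append] at e2
    rw [List.nil_append] at e1
    omega

open Classical in
theorem sum_cost_le {r : List ℕ → List ℕ → Prop} (hs : ∀ v a b, r v a → r v b → r a b)
    {P : List ℕ → Prop} {Zs : List (List ℕ)} (hp : Zs.Pairwise fun a b => ¬ r a b)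
    (hP : ∀ z ∈ Zs, ∀ v, r v z → P v) (L : List Ar) :
    (Zs.map fun z => cost (L.filter fun e => decide (r e.1 z))).sum ≤
      cost (L.filter fun e => decide (P e.1)) := by
  have key : ∀ (v : List ℕ) (c : ℕ),
      (Zs.map fun z => if r v z then c else 0).sum ≤ if P v then c else 0 := by
    intro v c
    induction Zs with
    | nil => simp
    | cons z Zs ih =>
      obtain ⟨h1, h2⟩ := List.pairwise_cons.1 hp
      rw [List.map_cons, List.sum_cons]
      by_cases h : r v z
      · rw [if_pos h, if_pos (hP z List.mem_cons_self v h), List.sum_eq_zero]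
        · omega
        · simp only [List.mem_map, forall_exists_index, and_imp, forall_apply_eq_imp_iff₂]
          exact fun z' hz' => if_neg fun h' => h1 z' hz' (hs v _ _ h h')
      · rw [if_neg h, zero_add]
        exact ih h2 fun z hz => hP z (List.mem_cons_of_mem _ hz)
  have e : ∀ (Q : Ar → Prop) (e : Ar) (L : List Ar), cost ((e :: L).filter fun e => decide (Q e)) =
      (if Q e then e.2.length - e.1.length else 0) + cost (L.filter fun e => decide (Q e)) := by
    intro Q e L
    by_cases h : Q e <;> simp [cost_eq, h]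
  induction L with
  | nil => simp [cost, spell]
  | cons a L ih =>
    simp only [e (fun e => r e.1 _), e (fun e => P e.1), List.sum_map_add]
    exact Nat.add_le_add (key _ _) ih

variable {S : List (List ℕ)}

theorem geo {s : List Ar × List Ar} (h : GInv (arcs S) s)
    (hf : ∀ c ∈ cands (infs S), okc s (res s c) c = false) :
    Geo (Up S) (Dn S) (Vt [] s.1) (· ∈ infs S) (wt S) := by
  classical
  obtain ⟨Ab, h1, h2⟩ := h.used
  have h3 : ∀ a b, Arc (Up S) (Dn S) a b → (Vt [] s.1 a ↔ Vt [] s.1 b) := by
    intro a b hab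
    rcases List.mem_append.1 (h1.subset ((mem_arcs (S := S) (e := (a, b))).2 hab)) with h4 | h4
    · exact iff_of_true (h2 _ h4).1 (h2 _ h4).2
    · exact iff_of_false (h.out _ h4).1 (h.out _ h4).2
  have conn : ∀ P : List ℕ → Prop, (∀ a b, Arc (Up S) (Dn S) a b → (P a ↔ P b)) →
      ∀ a b, Conn (Up S) (Dn S) a b → (P a ↔ P b) := by
    intro P hP a b h
    induction h with
    | rel a b h => exact hP a b h
    | refl => rfl
    | symm _ _ _ ih => exact ih.symm
    | trans _ _ _ _ _ ih ih' => exact ih.trans ih'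
  refine ⟨fun z h => (mem_of_mm (S := S) (by unfold Up at h; omega)).2,
    fun z h => (mem_of_mm (S := S) (by unfold Dn at h; omega)).2, fun _ => base_in,
    fun _ => base_out, fun _ _ => wt_conn, fun _ => wt_pos, Or.inl rfl, h3,
    fun _ _ _ => tour_split, fun _ => base_infs, fun _ _ => infs_sub, rule_pl, ?_⟩
  rintro a b k ha hb hk hbd ⟨r, hr, hr'⟩ Zs hne hZ hp
  have hc : (a ++ b, k) ∈ cands (infs S) := mem_cands.2 ⟨⟨a, ha, b, hb, rfl⟩, hk, hbd⟩
  obtain ⟨h4, h5, h6⟩ := res_spec (c := (a ++ b, k)) h hk hbd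
  have h7 := hf _ hc
  rw [← Bool.not_eq_true, okc_iff] at h7
  generalize res s (a ++ b, k) = s' at *
  dsimp only at h5 h6 h7
  have hC := hook_path hk hbd
  have h8 : Vt [] s'.1 ((a ++ b).take k) := by
    obtain ⟨l1, l2, e, -, h9⟩ := hC.split_at (hook_vt hr)
    exact (h9.closure (fun e he => (h5 e (List.mem_append_left _
      (by rw [‹hook _ _ = _›]; exact List.mem_append_right _ he))).1) (h4 r hr')).1
  have h9 := (hC.closure (fun e he => (h5 e (List.mem_append_left _ he)).1) h8).2
  have h10 : ∀ a b, Arc (Up S) (Dn S) a b → (Vt [] s'.1 a ↔ Vt [] s'.1 b) := by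
    intro a b hab
    rcases List.mem_append.1 (h1.subset ((mem_arcs (S := S) (e := (a, b))).2 hab)) with h11 | h11
    · exact iff_of_true (h4 _ (h2 _ h11).1) (h4 _ (h2 _ h11).2)
    · exact h5 _ (List.mem_append_right _ h11)
  have h11 := sum_cost_le (r := Conn (Up S) (Dn S)) (fun v a b h h' => h.symm.trans h')
    (P := Vt [] s'.1) hp
    (fun z hz v hv => (conn _ h10 _ _ hv).2 (h9 z (hook_vt (hZ z hz).1))) s.2
  have h12 : Zs.map (wt S) =
      Zs.map fun z => cost (s.2.filter fun e => decide (Conn (Up S) (Dn S) e.1 z)) := by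
    refine List.map_congr_left fun z hz => ?_
    rw [wt, cost_perm (h1.filter _), List.filter_append, List.filter_eq_nil_iff.2, List.nil_append]
    intro e he
    simp only [decide_eq_true_eq]
    exact fun h13 => (hZ z hz).2.2 ((conn _ h3 _ _ h13).1 (h2 e he).1)
  have h13 := cost_perm (h6 h8)
  have h14 := (h6 h8).length_eq
  rw [cost_append] at h13
  rw [List.length_append] at h14
  obtain ⟨z, hz⟩ := List.exists_mem_of_ne_nil Zs hne
  obtain ⟨y, hy⟩ := base_out (hZ z hz).2.1
  have h15 : (z, y) ∈ s.2.filter fun e => decide (Vt [] s'.1 e.1) := by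
    refine List.mem_filter.2 ⟨?_, decide_eq_true (h9 z (hook_vt (hZ z hz).1))⟩
    exact (List.mem_append.1 (h1.subset ((mem_arcs (S := S) (e := (z, y))).2 hy))).resolve_left
      fun h16 => (hZ z hz).2.2 (h2 _ h16).1
  have h16 := List.length_pos_of_mem h15
  rw [h12]
  by_contra h17
  exact h7 ⟨h8, by omega, by omega⟩

theorem alg_spec (S : List (List ℕ)) : (∀ s ∈ S, s <:+: alg S) ∧
    ∀ T : List ℕ, (∀ s ∈ S, s <:+: T) → (alg S).length ≤ 2 * T.length := by
  obtain ⟨h1, h2⟩ := final_spec (C := cands (infs S)) (arcs_bal (S := S)) (fun _ => arcs_valid)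
    fun c hc => (mem_cands.1 hc).2
  refine ⟨fun s hs => ?_, fun T hT => ?_⟩
  · by_cases h : s = []
    · rw [h]; exact List.nil_infix
    obtain ⟨b, h3, h4⟩ := exists_base (mm_pos h hs)
    obtain ⟨r, h5, h6⟩ := (geo h1 h2).covered h3
    obtain ⟨l1, l2, e, h7, -⟩ := h1.path.split_at h5
    have h8 := h7.spell_suffix fun f hf => h1.valid f (e ▸ List.mem_append_left _ hf)
    rw [alg, e, spell_append]
    exact h4.trans (h6.trans (h8.isInfix.trans (List.prefix_append _ _).isInfix))
  · have := h1.bound
    have := cost_arcs hT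
    change cost (final (cands (infs S)) (arcs S)).1 ≤ _
    omega

end Vale.Agent.P333
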