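import Vale.Agent.P333.PTime
import Vale.Agent.P333.Defs

/-!
From the polynomial time calculus to a machine with finite alphabets.
-/

namespace Vale.Agent.P333

open Vale.Agent.Lib.H24.T Turing Function

theorem code_list {α : Type} [Enc α] {f : α → List Bool} (h : ∀ a, code a = f a) (l : List α) :
    code l = codeList f l := by
  induction l with
  | nil => rfl
  | cons a l ih => rw [code_cons, ih, h]; simp [codeList]

theorem code_letter (n : ℕ) : code n = codeLetter n :=
  code_list (α := Bool) (fun b => by cases b <;> rfl) n.bits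

theorem code_string (w : List ℕ) : code w = codeString w := code_list code_letter w

theorem code_instance (S : List (List ℕ)) : code S = codeInstance S := code_list code_string S

theorem exists_tm' (p : BP) : ∃ (tm : FinTM2) (ein : tm.Γ tm.k₀ ≃ Bool)
    (eout : tm.Γ tm.k₁ ≃ Bool), (∀ k, Finite (tm.Γ k)) ∧ ∀ x y t, Run p x y t →
      Nonempty (TM2OutputsInTime tm (x.map ein.invFun) (some (y.map eout.invFun)) (t + 2)) := by
  let P : BP := .seq p (clr 1)
  refine ⟨toFinTM2 (P.map (clamp P.bound)) (clamp P.bound 0) (clamp P.bound 0), Equiv.refl _,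
    Equiv.refl _, fun _ => inferInstanceAs (Finite Bool), fun x y t h => ?_⟩
  obtain ⟨t', v', ht, h1⟩ := h none
  have h2 : Exec P none (W x [] [] []) (t' + 1) none (W y [] [] []) :=
    h1.seq (Exec.whileNil rfl)
  have hW : ∀ z, W z [] [] [] = update (fun _ => []) 0 z := by
    intro z
    simp only [W, scons_nil]
    rw [← update_scons_zero [], scons_nil]
  have h3 := exec_clamp P.bound h2 le_rfl
  rw [hW, hW, update_clamp (Nat.zero_le _), update_clamp (Nat.zero_le _)] at h3
  have k1 := toFinTM2_outputs _ _ _ _ _ (t' + 1) (t + 2) (by omega) h3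
  have e1 : ∀ w : List Bool, List.map (Equiv.refl Bool).invFun w = w := fun w => List.map_id w
  rw [← e1 x, ← e1 y] at k1
  exact k1

theorem alg_machine : ∃ M : TM2ComputableInPolyTime codeInstance codeString alg,
    ∀ k, Finite (M.tm.Γ k) := by
  obtain ⟨p, t, ⟨k, hk⟩, hp⟩ := pt_alg
  obtain ⟨tm, ein, eout, h1, h2⟩ := exists_tm' p
  have h3 : ∀ S, Nonempty (TM2OutputsInTime tm ((codeInstance S).map ein.invFun)
      (some ((codeString (alg S)).map eout.invFun))
      (((Polynomial.X + 2) ^ k + 2 : Polynomial ℕ).eval (codeInstance S).length)) := by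
    intro S
    obtain ⟨h⟩ := h2 _ _ _ ((hp S).mono (hk S))
    rw [code_instance, code_string, sz, code_instance] at h
    refine ⟨?_⟩
    simpa using h
  exact ⟨⟨⟨tm, ein, eout⟩, (Polynomial.X + 2) ^ k + 2, fun S => (h3 S).some⟩, h1⟩

end Vale.Agent.P333
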