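import Vale.Agent.P333.Greedy

/-!
The algorithm runs in polynomial time.
-/

namespace Vale.Agent.P333

open Vale.Agent.Lib.H24.T

variable {α β : Type} [Enc α] [Enc β]

@[fun_prop] theorem pt_eqw {f g : α → List ℕ} (hf : PT f) (hg : PT g) :
    PT (fun a => eqw (f a) (g a)) := by
  have h : PT (fun a => decide ((f a).length = (g a).length) &&
      ((f a).zip (g a)).all fun p => decide (p.1 = p.2)) := by fun_prop
  refine h.of_eq fun a => ?_
  rw [Bool.eq_iff_iff, eqw_iff]
  generalize f a = l
  generalize g a = m
  induction l generalizing m with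
  | nil => cases m <;> simp
  | cons x l ih =>
    cases m with
    | nil => simp
    | cons y m =>
      have := ih m
      simp only [Bool.and_eq_true, decide_eq_true_eq, List.length_cons, Nat.add_right_cancel_iff,
        List.zip_cons_cons, List.all_cons, List.cons.injEq] at this ⊢
      tauto

@[fun_prop] theorem pt_eqn {f g : α → ℕ} (hf : PT f) (hg : PT g) :
    PT (fun a => eqn (f a) (g a)) := by unfold eqn; fun_prop

@[fun_prop] theorem pt_take {f : α → List β} {n : α → ℕ} (hn : PT n) (hf : PT f) :
    PT (fun a => (f a).take (n a)) := by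
  have h : PT (fun a => ((f a).reverse.drop ((f a).length - n a)).reverse) := by fun_prop
  refine h.of_eq fun a => ?_
  rw [List.drop_reverse, List.reverse_reverse]
  rcases le_total (n a) (f a).length with h | h
  · congr 1; omega
  · rw [List.take_of_length_le h, List.take_of_length_le (by omega)]

@[fun_prop] theorem pt_dropLast {f : α → List β} (hf : PT f) : PT (fun a => (f a).dropLast) := by
  have h : PT (fun a => (f a).take ((f a).length - 1)) := by fun_prop
  exact h.of_eq fun a => List.dropLast_eq_take.symm

theorem sum_lt_sz (l : List ℕ) : l.sum < 2 ^ sz l := by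
  induction l with
  | nil => simp
  | cons x l ih =>
    have h1 := lt_two_pow_sz x
    have h2 : 1 ≤ 2 ^ sz x := Nat.one_le_two_pow
    have h3 : 1 ≤ 2 ^ sz l := Nat.one_le_two_pow
    simp only [List.sum_cons, sz_cons, pow_add]
    nlinarith

@[fun_prop] theorem pt_sum {f : α → List ℕ} (hf : PT f) : PT (fun a => (f a).sum) := by
  refine (PT.foldl (h := fun _ (y x : ℕ) => y + x) (by fun_prop) hf (PT.const 0)
    (fun a => 4 * sz (f a) + 1) (by fun_prop) fun a i => sz_nat_le ?_).of_eq
    fun a => List.sum_eq_foldl.symm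
  rw [← List.sum_eq_foldl]
  exact (sum_lt_sz _).trans_le (Nat.pow_le_pow_right (by omega) (sz_take _ _))

@[fun_prop] theorem pt_max {f g : α → ℕ} (hf : PT f) (hg : PT g) :
    PT (fun a => max (f a) (g a)) :=
  (PT.ite (hf.le hg) hg hf).of_eq fun a => by split_ifs <;> omega

@[fun_prop] theorem pt_min {f g : α → ℕ} (hf : PT f) (hg : PT g) :
    PT (fun a => min (f a) (g a)) :=
  (PT.ite (hf.le hg) hf hg).of_eq fun a => by split_ifs <;> omega

@[fun_prop] theorem pt_rg {f : α → List β} (hf : PT f) : PT (fun a => rg (f a)) :=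
  hf.range_length

@[fun_prop] theorem pt_rng {f : α → List β} (hf : PT f) : PT (fun a => rng (f a)) := by
  unfold rng; fun_prop

theorem pt_dd {eq : β → β → Bool} (he : PT fun p : β × β => eq p.1 p.2) {f : α → List β}
    (hf : PT f) : PT (fun a => dd eq (f a)) := by
  have h1 : PT (fun p : (α × List β × β) × β => eq p.1.2.2 p.2) :=
    he.comp (g := fun p : (α × List β × β) × β => (p.1.2.2, p.2)) (by fun_prop)
  have h2 : PT (fun p : α × List β × β => p.2.1.any (eq p.2.2)) := PT.any (by fun_prop) h1
  refine PT.foldl_add (h := fun _ (acc : List β) x => if acc.any (eq x) then acc else x :: acc)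
    (PT.ite h2.decide_true (by fun_prop) (by fun_prop)) hf (PT.const [])
    (fun p => sz p.2 + 1) (by fun_prop) fun a y x => ?_
  split_ifs <;> simp; omega

@[fun_prop] theorem pt_flat {f : α → List (List ℕ)} (hf : PT f) : PT (fun a => flat (f a)) := by
  unfold flat; fun_prop

@[fun_prop] theorem pt_infs {f : α → List (List ℕ)} (hf : PT f) : PT (fun a => infs (f a)) :=
  pt_dd (by fun_prop) (by fun_prop)

@[fun_prop] theorem pt_alph {f : α → List (List ℕ)} (hf : PT f) : PT (fun a => alph (f a)) :=
  pt_dd (by fun_prop) (by fun_prop)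

@[fun_prop] theorem pt_look {t : α → List (List ℕ × ℕ)} {z : α → List ℕ} (ht : PT t) (hz : PT z) :
    PT (fun a => look (t a) (z a)) := by unfold look; fun_prop

/-- The left sum read from a table. -/
def lsT (A : List ℕ) (t : List (List ℕ × ℕ)) (v : List ℕ) : ℕ := lsum A (look t) v

/-- The right sum read from a table. -/
def rsT (A : List ℕ) (t : List (List ℕ × ℕ)) (v : List ℕ) : ℕ := rsum A (look t) v

theorem lsT_eq (A t v) : lsum A (look t) v = lsT A t v := rfl
theorem rsT_eq (A t v) : rsum A (look t) v = rsT A t v := rfl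

@[fun_prop] theorem pt_lsT {A : α → List ℕ} {t : α → List (List ℕ × ℕ)} {z : α → List ℕ}
    (hA : PT A) (ht : PT t) (hz : PT z) : PT (fun a => lsT (A a) (t a) (z a)) := by
  unfold lsT lsum; fun_prop

@[fun_prop] theorem pt_rsT {A : α → List ℕ} {t : α → List (List ℕ × ℕ)} {z : α → List ℕ}
    (hA : PT A) (ht : PT t) (hz : PT z) : PT (fun a => rsT (A a) (t a) (z a)) := by
  unfold rsT rsum; fun_prop

@[fun_prop] theorem pt_ent {u y : α → List ℕ} {p n : α → ℕ}
    (hu : PT u) (hp : PT p) (hn : PT n) (hy : PT y) :
    PT (fun a => ent (u a) (p a) (n a) (y a)) := by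
  unfold ent; fun_prop

/-- The rule read from a table. -/
def fluT (V : List (List ℕ)) (A : List ℕ) (t : List (List ℕ × ℕ)) (v u : List ℕ) : Bool :=
  flu V A (look t) v u

@[fun_prop] theorem pt_fluT {V : α → List (List ℕ)} {A : α → List ℕ} {t : α → List (List ℕ × ℕ)}
    {v u : α → List ℕ} (hV : PT V) (hA : PT A) (ht : PT t) (hv : PT v) (hu : PT u) :
    PT (fun a => fluT (V a) (A a) (t a) (v a) (u a)) := by
  unfold fluT flu; simp only [lsT_eq, rsT_eq]; fun_prop

/-- The basic bound read from a table. -/
def basT (S : List (List ℕ)) (A : List ℕ) (t : List (List ℕ × ℕ)) (v : List ℕ) : ℕ :=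
  bas S A (look t) v

@[fun_prop] theorem pt_basT {S : α → List (List ℕ)} {A : α → List ℕ} {t : α → List (List ℕ × ℕ)}
    {v : α → List ℕ} (hS : PT S) (hA : PT A) (ht : PT t) (hv : PT v) :
    PT (fun a => basT (S a) (A a) (t a) (v a)) := by
  have h : PT (fun a => (S a).any fun u => eqw (v a) u) := by fun_prop
  have h' : PT (fun a => if (S a).any (eqw (v a)) then 1 else 0) :=
    PT.ite h.decide_true (by fun_prop) (by fun_prop)
  exact pt_max (pt_lsT hA ht hv) (pt_max (pt_rsT hA ht hv) h')

/-- The forced count read from a table. -/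
def phiT (S V : List (List ℕ)) (A : List ℕ) (t : List (List ℕ × ℕ)) (v : List ℕ) : ℕ :=
  phi S V A (look t) v

@[fun_prop] theorem pt_phiT {S V : α → List (List ℕ)} {A : α → List ℕ}
    {t : α → List (List ℕ × ℕ)} {v : α → List ℕ} (hS : PT S) (hV : PT V) (hA : PT A) (ht : PT t)
    (hv : PT v) : PT (fun a => phiT (S a) (V a) (A a) (t a) (v a)) := by
  have h : PT (fun a => decide (basT (S a) (A a) (t a) (v a) ≤ lsT (A a) (t a) (v a)) &&
      (V a).any fun u => fluT (V a) (A a) (t a) (v a) u) := by fun_prop
  exact PT.ite h.decide_true (f := fun a => basT (S a) (A a) (t a) (v a) + 1)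
    (g := fun a => basT (S a) (A a) (t a) (v a)) (by fun_prop) (by fun_prop)

theorem pt_tab : PT tab := by
  have h : PT (fun p : List (List ℕ) × List (List ℕ × ℕ) × ℕ => p.2.1 ++
      ((infs p.1).filter fun v => decide (v.length = p.2.2 + 1)).map fun v =>
        (v, min (phiT p.1 (infs p.1) (alph p.1) p.2.1 v) (flat p.1).length)) := by fun_prop
  refine PT.foldl_add (h := fun S => tstep S (infs S) (alph S) (flat S).length) h (by fun_prop)
    (PT.const []) (fun p => (infs p.1).length * (sz (infs p.1) + 4 * (flat p.1).length + 2 + 1) + 1)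
    (by fun_prop) fun S t n => ?_
  have h1 := sz_append t (((infs S).filter fun v => decide (v.length = n + 1)).map fun v =>
    (v, min (phi S (infs S) (alph S) (look t) v) (flat S).length))
  have h2 := sz_list_le (l := ((infs S).filter fun v => decide (v.length = n + 1)).map fun v =>
    (v, min (phi S (infs S) (alph S) (look t) v) (flat S).length))
    (B := sz (infs S) + 4 * (flat S).length + 2) (by
      intro e he
      obtain ⟨v, hv, rfl⟩ := List.mem_map.1 he
      have h3 := sz_mem (List.mem_filter.1 hv).1
      have h4 := sz_nat_le (n := min (phi S (infs S) (alph S) (look t) v) (flat S).length)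
        (k := (flat S).length) ((min_le_right _ _).trans_lt Nat.lt_two_pow_self)
      rw [sz_pair]; omega)
  have h3 := Nat.mul_le_mul_right (sz (infs S) + 4 * (flat S).length + 2 + 1)
    (List.length_filter_le (fun v : List ℕ => decide (v.length = n + 1)) (infs S))
  rw [List.length_map] at h2
  unfold tstep
  dsimp only
  omega

theorem pt_arcs : PT arcs := by
  have h := pt_tab
  unfold arcs arcsOf mm rep
  simp only [lsT_eq, rsT_eq]
  fun_prop

theorem sz_perm {l l' : List β} (h : l.Perm l') : sz l = sz l' := by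
  induction h with
  | nil => rfl
  | cons _ _ ih => simp [ih]
  | swap => simp; omega
  | trans _ _ ih ih' => exact ih.trans ih'

theorem sz_hstep (r : List ℕ) (s : List Ar × List Ar × List Ar) : sz (hstep r s) = sz s := by
  obtain ⟨A, B, R⟩ := s
  have hperm := sz_perm (List.filter_append_perm (fun e : Ar => eqw e.1 (cur r A)) R)
  have e0 : hstep r (A, B, R) = lcase (R.filter (fun e : Ar => eqw e.1 (cur r A)))
    (lcase A (A, B, R) fun a A => (A, a :: B, R))
    fun e F => (e :: A, B, F ++ R.filter fun e : Ar => !eqw e.1 (cur r A)) := rfl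
  rw [e0]
  clear e0
  rcases hF : R.filter (fun e : Ar => eqw e.1 (cur r A)) with _ | ⟨e, F⟩
  · rcases A with _ | ⟨a, A⟩
    · rfl
    · simp [lcase]; omega
  · rw [hF] at hperm
    simp [lcase] at hperm ⊢; omega

theorem sz_iter (r : List ℕ) (n : ℕ) (s : List Ar × List Ar × List Ar) :
    sz ((hstep r)^[n] s) = sz s := by
  induction n generalizing s with
  | zero => rfl
  | succ n ih => rw [Function.iterate_succ_apply, ih, sz_hstep]

theorem sz_absorb (r : List ℕ) (t R : List Ar) : sz (absorb r t R) ≤ sz t + sz R + 2 := by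
  have h := sz_iter r (t ++ (R ++ R)).length (t.reverse, [], R)
  rw [sz_pair' ((hstep r)^[_] _), sz_pair t.reverse, sz_pair [] R, sz_reverse, sz_nil] at h
  have := sz_pos ((hstep r)^[(t ++ (R ++ R)).length] (t.reverse, [], R)).1
  unfold absorb
  omega

@[fun_prop] theorem pt_absorb {t R : α → List Ar} (ht : PT t) (hR : PT R) :
    PT (fun a => absorb [] (t a) (R a)) := by
  have h : PT (fun p : α × List Ar × List Ar × List Ar => hstep [] p.2) := by
    unfold hstep cur; fun_prop
  exact (PT.iterate (h := fun _ => hstep []) h (l := fun a => t a ++ (R a ++ R a))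
    (b := fun a => ((t a).reverse, [], R a)) (by fun_prop) (by fun_prop)
    (fun a => sz ((t a).reverse, ([] : List Ar), R a)) (by fun_prop)
    fun a i _ => (sz_iter _ _ _).le).snd

@[fun_prop] theorem pt_hook {y : α → List ℕ} {k : α → ℕ} (hy : PT y) (hk : PT k) :
    PT (fun a => hook (y a) (k a)) := by unfold hook; fun_prop

@[fun_prop] theorem pt_res {s : α → List Ar × List Ar} {c : α → List ℕ × ℕ} (hs : PT s)
    (hc : PT c) : PT (fun a => res (s a) (c a)) := by unfold res; fun_prop

@[fun_prop] theorem pt_spell {l : α → List Ar} (hl : PT l) : PT (fun a => spell (l a)) := by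
  unfold spell; fun_prop

@[fun_prop] theorem pt_okc {s s' : α → List Ar × List Ar} {c : α → List ℕ × ℕ} (hs : PT s)
    (hs' : PT s') (hc : PT c) : PT (fun a => okc (s a) (s' a) (c a)) := by
  unfold okc cost; fun_prop

@[fun_prop] theorem pt_gstep {s : α → List Ar × List Ar} {C : α → List (List ℕ × ℕ)} (hC : PT C)
    (hs : PT s) : PT (fun a => gstep (C a) (s a)) := by
  unfold gstep; fun_prop

theorem sz_gstep (C : List (List ℕ × ℕ)) (s : List Ar × List Ar) :
    sz (gstep C s) ≤ sz s + sz (C.map fun c => hook c.1 c.2) := by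
  rcases hF : C.filter fun c => okc s (res s c) c with _ | ⟨c, F⟩
  · have h1 : gstep C s = s := by rw [gstep, hF]; rfl
    rw [h1]; omega
  · have h1 : gstep C s = res s c := by rw [gstep, hF]; rfl
    have h2 : c ∈ C.filter fun c => okc s (res s c) c := by rw [hF]; simp
    have h3 := sz_mem (List.mem_map_of_mem (f := fun c : List ℕ × ℕ => hook c.1 c.2)
      (List.mem_filter.1 h2).1)
    have h4 := sz_absorb [] s.1 (hook c.1 c.2 ++ s.2)
    have h5 := sz_append (hook c.1 c.2) s.2
    rw [h1, res, sz_pair' s]
    omega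

@[fun_prop] theorem pt_final {C : α → List (List ℕ × ℕ)} {E : α → List Ar} (hC : PT C)
    (hE : PT E) : PT (fun a => final (C a) (E a)) := by
  refine PT.iterate (h := fun a => gstep (C a)) (by fun_prop) hE (by fun_prop)
    (fun a => sz (absorb [] [] (E a)) + (E a).length * sz ((C a).map fun c => hook c.1 c.2))
    (by fun_prop) fun a i hi => ?_
  refine le_trans ?_ (Nat.add_le_add_left (Nat.mul_le_mul_right _ hi) _)
  clear hi
  induction i with
  | zero => simp
  | succ i ih =>
    rw [Function.iterate_succ_apply']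
    have := sz_gstep (C a) ((gstep (C a))^[i] (absorb [] [] (E a)))
    rw [add_mul]
    omega

theorem pt_alg : PT alg := by
  have h := pt_arcs
  unfold alg cands
  fun_prop

end Vale.Agent.P333
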