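import Vale.Agent.P333.Count
import Vale.Agent.P333.Euler

/-!
The table of forced occurrence counts.
-/

namespace Vale.Agent.P333

/-- Removal of duplicates. -/
def dd {α : Type} (eq : α → α → Bool) (l : List α) : List α :=
  l.foldl (fun acc x => if acc.any (eq x) then acc else x :: acc) []

theorem dd_spec {α : Type} {eq : α → α → Bool} (h : ∀ a b, eq a b = true ↔ a = b) (l : List α) :
    (dd eq l).Nodup ∧ ∀ x, x ∈ dd eq l ↔ x ∈ l := by
  have key : ∀ (l acc : List α), acc.Nodup →
      (l.foldl (fun acc x => if acc.any (eq x) then acc else x :: acc) acc).Nodup ∧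
      ∀ x, x ∈ l.foldl (fun acc x => if acc.any (eq x) then acc else x :: acc) acc ↔
        x ∈ acc ∨ x ∈ l := by
    intro l
    induction l with
    | nil => intro acc h; simpa using h
    | cons y l ih =>
      intro acc hacc
      rw [List.foldl_cons]
      by_cases hy : y ∈ acc
      · rw [if_pos (by simpa [h] using hy)]
        refine ⟨(ih acc hacc).1, fun x => ?_⟩
        rw [(ih acc hacc).2, List.mem_cons]
        constructor
        · tauto
        · rintro (h | rfl | h) <;> tauto
      · rw [if_neg (by simpa [h] using hy)]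
        have := ih (y :: acc) (List.nodup_cons.2 ⟨hy, hacc⟩)
        refine ⟨this.1, fun x => ?_⟩
        rw [this.2, List.mem_cons, List.mem_cons]
        tauto
  simpa [dd] using key l [] List.nodup_nil

/-- Equality test for letters. -/
def eqn (a b : ℕ) : Bool := decide (a = b)

/-- The numbers below `l.length`. -/
def rg {α : Type} (l : List α) : List ℕ := List.range l.length

/-- The numbers `0, …, l.length`. -/
def rng {α : Type} (l : List α) : List ℕ := rg (() :: l.map fun _ => ())

theorem mem_rng {α : Type} {l : List α} {i : ℕ} : i ∈ rng l ↔ i ≤ l.length := by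
  simp [rng, rg]

/-- Concatenation of the input strings. -/
def flat (S : List (List ℕ)) : List ℕ := S.flatMap fun s => s

/-- All factors of the input strings. -/
def infs (S : List (List ℕ)) : List (List ℕ) :=
  dd eqw (S.flatMap fun s => (rng s).flatMap fun i => (rng s).map fun j => (s.drop i).take j)

/-- The letters of the input strings. -/
def alph (S : List (List ℕ)) : List ℕ := dd eqn (flat S)

variable {S : List (List ℕ)}

theorem infs_nodup : (infs S).Nodup := (dd_spec (fun _ _ => eqw_iff) _).1

theorem alph_nodup : (alph S).Nodup := (dd_spec (by simp [eqn]) _).1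

theorem mem_alph {a : ℕ} : a ∈ alph S ↔ ∃ s ∈ S, a ∈ s := by
  rw [alph, (dd_spec (by simp [eqn]) _).2]; simp [flat]

theorem mem_infs {v : List ℕ} : v ∈ infs S ↔ ∃ s ∈ S, v <:+: s := by
  rw [infs, (dd_spec (fun _ _ => eqw_iff) _).2]
  simp only [List.mem_flatMap, List.mem_map, mem_rng]
  constructor
  · rintro ⟨s, hs, i, -, j, -, rfl⟩
    exact ⟨s, hs, (List.take_prefix _ _).isInfix.trans (List.drop_suffix _ _).isInfix⟩
  · rintro ⟨s, hs, a, b, rfl⟩
    exact ⟨_, hs, a.length, by simp, v.length, by simp; omega, by simp⟩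

theorem infs_sub {v w : List ℕ} (h : v ∈ infs S) (h' : w <:+: v) : w ∈ infs S := by
  obtain ⟨s, hs, h⟩ := mem_infs.1 h
  exact mem_infs.2 ⟨s, hs, h'.trans h⟩

theorem infs_alph {v : List ℕ} (h : v ∈ infs S) {a : ℕ} (ha : a ∈ v) : a ∈ alph S := by
  obtain ⟨s, hs, h⟩ := mem_infs.1 h
  exact mem_alph.2 ⟨s, hs, h.subset ha⟩

theorem infix_flat {s : List ℕ} (h : s ∈ S) : s <:+: flat S := by
  obtain ⟨a, b, rfl⟩ := List.append_of_mem h
  exact ⟨flat a, flat b, by simp [flat]⟩

theorem infs_length {v : List ℕ} (h : v ∈ infs S) : v.length ≤ (flat S).length := by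
  obtain ⟨s, hs, h⟩ := mem_infs.1 h
  exact (h.trans (infix_flat hs)).length_le

/-- The test for a word entering the periodic plane of `u`. -/
def ent (u : List ℕ) (p n : ℕ) (y : List ℕ) : Bool :=
  eqw ((u.take n ++ y.tail).take u.length) u &&
    (eqw ((u.take n ++ y.tail).take ((u.take n ++ y.tail).length - p))
      ((u.take n ++ y.tail).drop p) && !eqw y ((u.take n ++ y.tail).drop (n - 1)))

/-- The periodicity rule for the bordered word `u` with border `v`. -/
def flu (V : List (List ℕ)) (A : List ℕ) (f : List ℕ → ℕ) (v u : List ℕ) : Bool :=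
  decide (v.length < u.length) && (eqw (u.take v.length) v &&
    (eqw (u.drop (u.length - v.length)) v && (decide (lsum A f u < f u) &&
      (rng u).all fun n => decide (n = 0) || (decide (u.length - v.length < n) ||
        ((decide (n = u.length - v.length) || decide (f (u.drop n) ≤ lsum A f (u.drop n))) &&
          V.all fun y => !ent u (u.length - v.length) n y || decide (f y ≤ rsum A f y))))))

/-- The periodicity rule as a proposition. -/
def FlP (V : List (List ℕ)) (A : List ℕ) (f : List ℕ → ℕ) (v u : List ℕ) : Prop :=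
  v.length < u.length ∧ v <+: u ∧ v <:+ u ∧ lsum A f u < f u ∧
    ∀ n, 0 < n → n ≤ u.length - v.length →
      (n < u.length - v.length → f (u.drop n) ≤ lsum A f (u.drop n)) ∧
      ∀ y ∈ V, u <+: u.take n ++ y.tail →
        (u.take n ++ y.tail).drop (u.length - v.length) <+: u.take n ++ y.tail →
        y ≠ (u.take n ++ y.tail).drop (n - 1) → f y ≤ rsum A f y

theorem ent_iff {u y : List ℕ} {p n : ℕ} : ent u p n y = true ↔ u <+: u.take n ++ y.tail ∧
    (u.take n ++ y.tail).drop p <+: u.take n ++ y.tail ∧
      y ≠ (u.take n ++ y.tail).drop (n - 1) := by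
  simp only [ent, Bool.and_eq_true, eqw_iff, Bool.not_eq_eq_eq_not, Bool.not_true, eqw_false]
  rw [List.prefix_iff_eq_take, List.prefix_iff_eq_take, List.length_drop, eq_comm,
    eq_comm (b := List.drop _ _)]

theorem flu_iff {V A f v u} : flu V A f v u = true ↔ FlP V A f v u := by
  simp only [flu, FlP, Bool.and_eq_true, decide_eq_true_eq, eqw_iff, List.all_eq_true, mem_rng,
    Bool.or_eq_true, Bool.not_eq_eq_eq_not, Bool.not_true]
  rw [List.prefix_iff_eq_take, List.suffix_iff_eq_drop, eq_comm (a := v), eq_comm (a := v)]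
  refine and_congr_right fun _ => and_congr_right fun _ => and_congr_right fun _ =>
    and_congr_right fun _ => ⟨fun h n h1 h2 => ?_, fun h n h1 => ?_⟩
  · rcases h n (by omega) with h3 | h3 | ⟨h3, h4⟩
    · omega
    · omega
    · refine ⟨fun h5 => h3.resolve_left (by omega), fun y hy h5 h6 h7 => ?_⟩
      exact (h4 y hy).resolve_left (by rw [ent_iff.2 ⟨h5, h6, h7⟩]; simp)
  · by_cases h2 : n = 0
    · exact Or.inl h2
    by_cases h3 : u.length - v.length < n
    · exact Or.inr (Or.inl h3)
    obtain ⟨h4, h5⟩ := h n (by omega) (by omega)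
    refine Or.inr (Or.inr ⟨?_, fun y hy => ?_⟩)
    · by_cases h6 : n = u.length - v.length
      · exact Or.inl h6
      · exact Or.inr (h4 (by omega))
    · cases h6 : ent u (u.length - v.length) n y
      · exact Or.inl rfl
      · obtain ⟨h7, h8, h9⟩ := ent_iff.1 h6
        exact Or.inr (h5 y hy h7 h8 h9)

theorem lsum_congr {A f g} {z : List ℕ} {n : ℕ} (h : ∀ w : List ℕ, n < w.length → f w = g w)
    (hz : n ≤ z.length) : lsum A f z = lsum A g z := by
  unfold lsum; congr 1
  exact List.map_congr_left fun a _ => h _ (by simp; omega)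

theorem rsum_congr {A f g} {z : List ℕ} {n : ℕ} (h : ∀ w : List ℕ, n < w.length → f w = g w)
    (hz : n ≤ z.length) : rsum A f z = rsum A g z := by
  unfold rsum; congr 1
  exact List.map_congr_left fun a _ => h _ (by simp; omega)

theorem FlP.congr {V A f g v u} (hv : v ≠ []) (h : ∀ w : List ℕ, v.length < w.length → f w = g w)
    (H : FlP V A f v u) : FlP V A g v u := by
  obtain ⟨h1, h2, h3, h4, h5⟩ := H
  refine ⟨h1, h2, h3, by rw [← lsum_congr h h1.le, ← h u h1]; exact h4, fun n h6 h7 => ?_⟩
  obtain ⟨h8, h9⟩ := h5 n h6 h7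
  refine ⟨fun h10 => ?_, fun y hy h10 h11 h12 => ?_⟩
  · rw [← lsum_congr h (by simp; omega), ← h _ (by simp; omega)]; exact h8 h10
  · have h13 := h10.length_le
    have h14 := List.length_pos_iff.2 hv
    simp only [List.length_append, List.length_take, List.length_tail] at h13
    rw [← rsum_congr h (by omega), ← h _ (by omega)]; exact h9 y hy h10 h11 h12

/-- The lower bound without the periodicity rule. -/
def bas (S : List (List ℕ)) (A : List ℕ) (f : List ℕ → ℕ) (v : List ℕ) : ℕ :=
  max (lsum A f v) (max (rsum A f v) (if S.any (eqw v) then 1 else 0))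

/-- The forced count of `v`, given those of the longer words. -/
def phi (S V : List (List ℕ)) (A : List ℕ) (f : List ℕ → ℕ) (v : List ℕ) : ℕ :=
  if decide (bas S A f v ≤ lsum A f v) && V.any (flu V A f v) then bas S A f v + 1
  else bas S A f v

theorem phi_congr {S V A f g v} (hv : v ≠ [])
    (h : ∀ w : List ℕ, v.length < w.length → f w = g w) : phi S V A f v = phi S V A g v := by
  have h1 : V.any (flu V A f v) = V.any (flu V A g v) := by
    congr 1; funext u
    rw [Bool.eq_iff_iff, flu_iff, flu_iff]
    exact ⟨FlP.congr hv h, FlP.congr hv fun w hw => (h w hw).symm⟩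
  have h2 : bas S A f v = bas S A g v := by
    rw [bas, bas, lsum_congr h le_rfl, rsum_congr h le_rfl]
  rw [phi, phi, h1, h2, lsum_congr h le_rfl]

theorem phi_le {T : List ℕ} (hT : ∀ a ∈ T, a ∈ alph S) (hS : ∀ s ∈ S, s <:+: T) {f v}
    (h0 : ∀ z, z ∉ infs S → f z = 0)
    (hle : ∀ z : List ℕ, v.length < z.length → f z ≤ cnt T z ∧ lsum (alph S) f z ≤ f z) :
    phi S (infs S) (alph S) f v ≤ cnt T v := by
  have h1 : lsum (alph S) f v ≤ cnt T v := by
    rw [cnt_lsum alph_nodup hT v]
    exact le_add_right (sum_map_le fun a _ => (hle _ (by simp)).1)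
  have h2 : rsum (alph S) f v ≤ cnt T v :=
    le_trans (sum_map_le fun a _ => (hle _ (by simp)).1) (rsum_cnt_le alph_nodup T v)
  have h3 : (if S.any (eqw v) then 1 else 0) ≤ cnt T v := by
    split_ifs with h
    · simp only [List.any_eq_true, eqw_iff, exists_eq_right'] at h
      exact cnt_pos (hS v h)
    · omega
  have h4 : bas S (alph S) f v ≤ cnt T v := max_le h1 (max_le h2 h3)
  unfold phi
  split_ifs with h
  swap
  · exact h4
  simp only [Bool.and_eq_true, decide_eq_true_eq, List.any_eq_true, flu_iff] at h
  obtain ⟨h5, u, hu, h6, h7, h8, h9, h10⟩ := h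
  have h11 := List.suffix_iff_eq_drop.1 h8
  obtain ⟨p, hp⟩ : ∃ p, p = u.length - v.length := ⟨_, rfl⟩
  rw [← hp] at h10 h11
  obtain ⟨ω, e1, e2, e3⟩ := exists_ext (l := u) (p := p) (by omega) (by omega) (h11 ▸ h7)
  have e4 : ∀ n : ℕ, n ≤ u.length → u.drop n = wd ω n u.length := fun n hn => by
    conv_lhs => rw [e2]
    rw [wd_drop n (by omega), zero_add]
  have := valid alph_nodup hT (m := f) (ω := ω) (p := p) (by omega) e1
    (fun t => infs_alph hu (e3 t)) (i := p) (j := u.length) (by omega)
    (fun z hz => (hle z (by omega)).1) (fun z hz => (hle z (by omega)).2)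
    (by rw [sub_self, ← e2]; exact h9)
    (fun x h12 h13 => by
      have := (h10 x.toNat (by omega) (by omega)).1 (by omega)
      rwa [e4 _ (by omega), Int.toNat_of_nonneg (by omega)] at this)
    (fun x y c h12 h13 h14 h15 => by
      by_cases hy : c :: wd ω x y ∈ infs S
      swap
      · rw [h0 _ hy]; omega
      have e5 : u.take x.toNat ++ (c :: wd ω x y).tail = wd ω 0 y := by
        conv_lhs => rw [e2]
        rw [wd_take _ (by omega), List.tail_cons, zero_add, Int.toNat_of_nonneg (by omega),
          wd_append (by omega) (by omega)]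
      refine (h10 x.toNat (by omega) (by omega)).2 _ hy ?_ ?_ ?_ <;> rw [e5]
      · conv_lhs => rw [e2]
        exact wd_prefix (by omega) h14
      · exact wd_drop_prefix e1 (by omega)
      · rw [wd_drop _ (by omega), show (0 : ℤ) + (x.toNat - 1 : ℕ) = x - 1 by omega,
          wd_cons' (by omega)]
        exact fun h => h15 (List.cons.inj h).1)
  rw [← e4 p (by omega), ← h11] at this
  omega

/-- Lookup in a table. -/
def look (t : List (List ℕ × ℕ)) (z : List ℕ) : ℕ :=
  ((t.filter fun e => eqw e.1 z).map fun e => e.2).sum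

/-- One level of the table. -/
def tstep (S V : List (List ℕ)) (A : List ℕ) (N : ℕ) (t : List (List ℕ × ℕ)) (n : ℕ) :
    List (List ℕ × ℕ) :=
  t ++ (V.filter fun v => decide (v.length = n + 1)).map fun v => (v, min (phi S V A (look t) v) N)

/-- The table of forced counts. -/
def tab (S : List (List ℕ)) : List (List ℕ × ℕ) :=
  (rg (flat S)).reverse.foldl (tstep S (infs S) (alph S) (flat S).length) []

theorem look_map {V : List (List ℕ)} (hV : V.Nodup) (g : List ℕ → ℕ) (z : List ℕ) :
    look (V.map fun v => (v, g v)) z = if z ∈ V then g z else 0 := by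
  induction V with
  | nil => simp [look]
  | cons v V ih =>
    have h1 := ih (List.nodup_cons.1 hV).2
    have h2 := (List.nodup_cons.1 hV).1
    by_cases h : v = z
    · subst h
      simp only [look, List.map_cons, List.filter_cons, eqw_iff, if_true, List.sum_cons,
        List.mem_cons, true_or, if_neg h2] at h1 ⊢
      omega
    · simp only [look, List.map_cons, List.filter_cons, eqw_iff, if_neg h, List.mem_cons,
        Ne.symm h, false_or] at h1 ⊢
      exact h1

theorem look_tstep {V : List (List ℕ)} (hV : V.Nodup) (A N t n z) :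
    look (tstep S V A N t n) z = look t z +
      if z ∈ V ∧ z.length = n + 1 then min (phi S V A (look t) z) N else 0 := by
  have := look_map (hV.filter fun v => decide (v.length = n + 1))
    (fun v => min (phi S V A (look t) v) N) z
  simp only [List.mem_filter, decide_eq_true_eq] at this
  rw [← this]
  simp [look, tstep]

theorem look_fold {V : List (List ℕ)} (hV : V.Nodup) (A N) (n : ℕ) : ∀ t,
    (∀ z : List ℕ, (z = [] ∨ n < z.length) →
      look ((List.range n).reverse.foldl (tstep S V A N) t) z = look t z) ∧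
    ((∀ z : List ℕ, z.length ≤ n → look t z = 0) → ∀ v : List ℕ, v ≠ [] → v.length ≤ n →
      look ((List.range n).reverse.foldl (tstep S V A N) t) v = if v ∈ V then
        min (phi S V A (look ((List.range n).reverse.foldl (tstep S V A N) t)) v) N else 0) := by
  induction n with
  | zero => intro t; simp +contextual
  | succ n ih =>
    intro t
    rw [List.range_succ, List.reverse_append, List.reverse_singleton, List.singleton_append,
      List.foldl_cons]
    obtain ⟨h1, h2⟩ := ih (tstep S V A N t n)
    have h3 : ∀ z : List ℕ, (z = [] ∨ n + 1 < z.length) →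
        look ((List.range n).reverse.foldl (tstep S V A N) (tstep S V A N t n)) z = look t z := by
      intro z hz
      rw [h1 z (hz.imp id (by omega)), look_tstep hV, if_neg, add_zero]
      rintro ⟨-, h⟩
      rcases hz with rfl | hz
      · simp at h
      · omega
    refine ⟨h3, fun h4 v hv h5 => ?_⟩
    by_cases h6 : v.length ≤ n
    · refine h2 (fun z hz => ?_) v hv h6
      rw [look_tstep hV, h4 z (by omega), if_neg (by omega)]
    · rw [h1 v (Or.inr (by omega)), look_tstep hV, h4 v h5, zero_add,
        phi_congr hv fun w hw => h3 w (Or.inr (by omega))]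
      simp [show v.length = n + 1 by omega]

/-- The forced counts. -/
def mm (S : List (List ℕ)) : List ℕ → ℕ := look (tab S)

theorem mm_eq (v : List ℕ) : mm S v = if v ∈ infs S ∧ v ≠ [] then
    min (phi S (infs S) (alph S) (mm S) v) (flat S).length else 0 := by
  obtain ⟨h1, h2⟩ := look_fold (S := S) (infs_nodup (S := S)) (alph S) (flat S).length
    (flat S).length []
  by_cases hv : v = []
  · rw [if_neg (by simp [hv])]; exact h1 v (Or.inl hv)
  by_cases h3 : v.length ≤ (flat S).length
  · refine (h2 (fun _ _ => rfl) v hv h3).trans ?_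
    simp only [hv, ne_eq, not_false_eq_true, and_true]
    rfl
  · rw [if_neg fun h => h3 (infs_length h.1)]
    exact h1 v (Or.inr (by omega))

theorem mm_zero {v : List ℕ} (h : v ∉ infs S) : mm S v = 0 := by rw [mm_eq]; simp [h]

theorem mm_nil : mm S [] = 0 := by rw [mm_eq]; simp

theorem mm_le (v : List ℕ) : mm S v ≤ (flat S).length := by
  rw [mm_eq]; split_ifs <;> simp

theorem lsum_zero {v : List ℕ} (h : v ∉ infs S) : lsum (alph S) (mm S) v = 0 := by
  simp only [lsum, List.sum_eq_zero_iff, List.mem_map, forall_exists_index, and_imp]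
  rintro _ a - rfl
  exact mm_zero fun h' => h (infs_sub h' (List.suffix_cons _ _).isInfix)

theorem rsum_zero {v : List ℕ} (h : v ∉ infs S) : rsum (alph S) (mm S) v = 0 := by
  simp only [rsum, List.sum_eq_zero_iff, List.mem_map, forall_exists_index, and_imp]
  rintro _ a - rfl
  exact mm_zero fun h' => h (infs_sub h' (List.prefix_append _ _).isInfix)

theorem bas_le_phi {S V A f v} : bas S A f v ≤ phi S V A f v := by
  unfold phi; split_ifs <;> omega

theorem mm_main {T : List ℕ} (hT : ∀ a ∈ T, a ∈ alph S) (hS : ∀ s ∈ S, s <:+: T) (z : List ℕ)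
    (hz : z ≠ []) : mm S z ≤ cnt T z ∧ mm S z ≤ cnt (flat S) z ∧
      (z ∈ infs S → mm S z = phi S (infs S) (alph S) (mm S) z) ∧
      lsum (alph S) (mm S) z ≤ mm S z := by
  have key : ∀ k, ∀ z : List ℕ, (flat S).length - z.length < k → z ≠ [] →
      mm S z ≤ cnt T z ∧ mm S z ≤ cnt (flat S) z ∧
      (z ∈ infs S → mm S z = phi S (infs S) (alph S) (mm S) z) ∧
      lsum (alph S) (mm S) z ≤ mm S z := by
    intro k
    induction k with
    | zero => intro z h; omega
    | succ k ih =>
      intro z h hz
      by_cases hV : z ∈ infs S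
      swap
      · simp [mm_zero hV, lsum_zero hV, hV]
      have ih' : ∀ w : List ℕ, z.length < w.length → mm S w ≤ cnt T w ∧
          mm S w ≤ cnt (flat S) w ∧ lsum (alph S) (mm S) w ≤ mm S w := by
        intro w hw
        by_cases hW : w ∈ infs S
        · have := infs_length hW
          have := ih w (by omega) (by rintro rfl; simp at hw)
          tauto
        · simp [mm_zero hW, lsum_zero hW]
      have h1 := phi_le hT hS (fun _ => mm_zero) fun w hw => ⟨(ih' w hw).1, (ih' w hw).2.2⟩
      have h2 := phi_le (T := flat S) (fun a ha => mem_alph.2 (by simpa [flat] using ha))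
        (fun _ => infix_flat) (fun _ => mm_zero) fun w hw => ⟨(ih' w hw).2.1, (ih' w hw).2.2⟩
      have h3 := cnt_add_le (flat S) z
      have h4 := List.length_pos_iff.2 hz
      have h5 : mm S z = phi S (infs S) (alph S) (mm S) z := by
        rw [mm_eq, if_pos ⟨hV, hz⟩]; omega
      refine ⟨h5 ▸ h1, h5 ▸ h2, fun _ => h5, ?_⟩
      rw [h5]
      exact (le_max_left _ _).trans bas_le_phi
  exact key _ z (Nat.lt_succ_self _) hz

theorem mm_phi {z : List ℕ} (hz : z ≠ []) (hV : z ∈ infs S) :
    mm S z = phi S (infs S) (alph S) (mm S) z :=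
  (mm_main (fun a ha => mem_alph.2 (by simpa [flat] using ha)) (fun _ => infix_flat) z hz).2.2.1 hV

theorem lsum_le_mm {z : List ℕ} (hz : z ≠ []) : lsum (alph S) (mm S) z ≤ mm S z :=
  (mm_main (fun a ha => mem_alph.2 (by simpa [flat] using ha)) (fun _ => infix_flat) z hz).2.2.2

theorem rsum_le_mm {z : List ℕ} (hz : z ≠ []) : rsum (alph S) (mm S) z ≤ mm S z := by
  by_cases hV : z ∈ infs S
  · rw [mm_phi hz hV]
    exact ((le_max_left _ _).trans (le_max_right _ _)).trans bas_le_phi
  · rw [rsum_zero hV]; omega

theorem mm_pos {z : List ℕ} (hz : z ≠ []) (h : z ∈ S) : 0 < mm S z := by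
  rw [mm_phi hz (mem_infs.2 ⟨z, h, List.infix_rfl⟩)]
  refine lt_of_lt_of_le ?_ (((le_max_right _ _).trans (le_max_right _ _)).trans bas_le_phi)
  rw [if_pos (by simpa using h)]; omega

theorem mm_flag {v u : List ℕ} (hv : v ≠ []) (hu : u ∈ infs S)
    (h : FlP (infs S) (alph S) (mm S) v u) : lsum (alph S) (mm S) v < mm S v := by
  rw [mm_phi hv (infs_sub hu h.2.1.isInfix)]
  have h1 : lsum (alph S) (mm S) v ≤ bas S (alph S) (mm S) v := le_max_left _ _
  unfold phi
  split_ifs with h2
  · omega
  · simp only [Bool.and_eq_true, decide_eq_true_eq, List.any_eq_true, flu_iff, not_and] at h2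
    by_contra h3
    exact h2 (by omega) ⟨u, hu, h⟩

end Vale.Agent.P333
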