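import Mathlib

/-!
Finite windows of two-sided infinite words.
-/

namespace Vale.Agent.P333

/-- The window `[x, y)` of a two-sided infinite word. -/
def wd (ω : ℤ → ℕ) (x y : ℤ) : List ℕ := (List.range (y - x).toNat).map (fun k : ℕ => ω (x + k))

/-- `d` is a period of the two-sided word. -/
def Per (ω : ℤ → ℕ) (d : ℤ) : Prop := ∀ t, ω (t + d) = ω t

variable {ω : ℤ → ℕ}

theorem wd_length (ω : ℤ → ℕ) (x y : ℤ) : (wd ω x y).length = (y - x).toNat := by simp [wd]

theorem wd_length' {x y : ℤ} (h : x ≤ y) : ((wd ω x y).length : ℤ) = y - x := by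
  rw [wd_length]; omega

theorem wd_getElem {x y : ℤ} {k : ℕ} (h : k < (wd ω x y).length) : (wd ω x y)[k] = ω (x + k) := by
  simp [wd]

theorem wd_self (x : ℤ) : wd ω x x = [] := by simp [wd]

theorem wd_ext {l : List ℕ} {x y : ℤ} (h : (l.length : ℤ) = y - x)
    (h2 : ∀ (k : ℕ) (hk : k < l.length), l[k] = ω (x + k)) : l = wd ω x y := by
  apply List.ext_getElem
  · rw [wd_length]; omega
  · intro k h1 h3; rw [wd_getElem, h2]

theorem wd_append {x y z : ℤ} (h1 : x ≤ y) (h2 : y ≤ z) : wd ω x y ++ wd ω y z = wd ω x z := by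
  apply wd_ext
  · simp only [List.length_append, wd_length]; omega
  · intro k hk
    rw [List.getElem_append]
    split_ifs with h
    · rw [wd_getElem]
    · rw [wd_getElem]; congr 1
      rw [wd_length] at h ⊢; omega

theorem wd_one (x : ℤ) : wd ω x (x + 1) = [ω x] := by simp [wd]

theorem wd_cons {x y : ℤ} (h : x < y) : wd ω x y = ω x :: wd ω (x + 1) y := by
  rw [← wd_append (y := x + 1) (by omega) (by omega), wd_one]; rfl

theorem wd_cons' {x y : ℤ} (h : x ≤ y) : wd ω (x - 1) y = ω (x - 1) :: wd ω x y := by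
  rw [wd_cons (by omega)]; simp

theorem wd_snoc {x y : ℤ} (h : x ≤ y) : wd ω x (y + 1) = wd ω x y ++ [ω y] := by
  rw [← wd_append (y := y) h (by omega), wd_one]

theorem wd_tail {x y : ℤ} (h : x < y) : (wd ω x y).tail = wd ω (x + 1) y := by
  rw [wd_cons h]; rfl

theorem wd_dropLast {x y : ℤ} (h : x < y) : (wd ω x y).dropLast = wd ω x (y - 1) := by
  have := wd_snoc (ω := ω) (x := x) (y := y - 1) (by omega)
  rw [sub_add_cancel] at this
  rw [this]; simp

theorem wd_ne_nil {x y : ℤ} (h : x < y) : wd ω x y ≠ [] := by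
  rw [wd_cons h]; simp

theorem wd_prefix {x y z : ℤ} (h1 : x ≤ y) (h2 : y ≤ z) : wd ω x y <+: wd ω x z :=
  ⟨_, wd_append h1 h2⟩

theorem wd_suffix {x y z : ℤ} (h1 : x ≤ y) (h2 : y ≤ z) : wd ω y z <:+ wd ω x z :=
  ⟨_, wd_append h1 h2⟩

theorem wd_infix {x x' y' y : ℤ} (h1 : x ≤ x') (h2 : x' ≤ y') (h3 : y' ≤ y) :
    wd ω x' y' <:+: wd ω x y :=
  (wd_prefix h2 h3).isInfix.trans (wd_suffix h1 (by omega)).isInfix

theorem wd_drop {x y : ℤ} (n : ℕ) (h : x + n ≤ y) : (wd ω x y).drop n = wd ω (x + n) y := by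
  rw [← wd_append (x := x) (y := x + n) (by omega) h, List.drop_left' (by rw [wd_length]; omega)]

theorem wd_take {x y : ℤ} (n : ℕ) (h : x + n ≤ y) : (wd ω x y).take n = wd ω x (x + n) := by
  rw [← wd_append (x := x) (y := x + n) (by omega) h, List.take_left' (by rw [wd_length]; omega)]

theorem eq_wd_of_prefix {l : List ℕ} {x y : ℤ} (hxy : x ≤ y) (h : l <+: wd ω x y) :
    l = wd ω x (x + l.length) := by
  have h1 := h.length_le
  have h2 := wd_length' (ω := ω) hxy
  rw [← wd_take l.length (y := y) (by omega)]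
  exact List.prefix_iff_eq_take.1 h

theorem eq_wd_of_suffix {l : List ℕ} {x y : ℤ} (hxy : x ≤ y) (h : l <:+ wd ω x y) :
    l = wd ω (y - l.length) y := by
  have h1 := h.length_le
  have h2 := wd_length' (ω := ω) hxy
  have h3 := List.suffix_iff_eq_drop.1 h
  rw [wd_drop _ (by omega)] at h3
  rw [h3]; congr 1
  rw [← h3]; omega

theorem Per.neg {d : ℤ} (h : Per ω d) : Per ω (-d) := fun t => by
  have := h (t + -d); rw [← this]; congr 1; ring

theorem Per.add {d e : ℤ} (h : Per ω d) (h' : Per ω e) : Per ω (d + e) := fun t => by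
  rw [← add_assoc, h', h]

theorem Per.mul {d : ℤ} (h : Per ω d) (k : ℤ) : Per ω (k * d) := by
  induction k using Int.induction_on with
  | zero => intro t; simp
  | succ k ih => rw [add_mul, one_mul]; exact ih.add h
  | pred k ih => rw [sub_mul, one_mul, sub_eq_add_neg]; exact ih.add h.neg

theorem wd_shift {d : ℤ} (h : Per ω d) (x y : ℤ) : wd ω (x + d) (y + d) = wd ω x y := by
  unfold wd
  rw [show y + d - (x + d) = y - x by ring]
  apply List.map_congr_left
  intro k _
  rw [← h (x + k)]; congr 1; ring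

theorem wd_shift' {d : ℤ} (h : Per ω d) {x y x' y' : ℤ} (hx : x' = x + d) (hy : y' = y + d) :
    wd ω x' y' = wd ω x y := by rw [hx, hy, wd_shift h]

/-- Local periodicity on `[a, b)`. -/
def LPer (ω : ℤ → ℕ) (q a b : ℤ) : Prop := ∀ t, a ≤ t → t + q < b → ω (t + q) = ω t

theorem per_of_window {w d a : ℤ} (hw : 0 < w) (h : Per ω w)
    (h2 : ∀ t, a ≤ t → t < a + w → ω (t + d) = ω t) : Per ω d := by
  intro t
  have h1 := Int.emod_nonneg (t - a) hw.ne'
  have h3 := Int.emod_lt_of_pos (t - a) hw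
  have h4 := Int.mul_ediv_add_emod (t - a) w
  have h5 := h2 (a + (t - a) % w) (by omega) (by omega)
  have h6 := h.mul ((t - a) / w) (a + (t - a) % w + d)
  have h7 := h.mul ((t - a) / w) (a + (t - a) % w)
  rw [← h6, ← h7] at h5
  convert h5 using 2 <;> linarith

theorem per_of_lper {w q a b : ℤ} (hw : 0 < w) (h : Per ω w) (h2 : LPer ω q a b)
    (hl : w + q ≤ b - a) : Per ω q :=
  per_of_window (a := a) hw h fun t h3 h4 => h2 t h3 (by omega)

theorem per_of_wd_eq {w x y x' y' : ℤ} (hw : 0 < w) (h : Per ω w) (hl : w ≤ y - x)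
    (he : wd ω x' y' = wd ω x y) : Per ω (x' - x) ∧ y' - x' = y - x := by
  have h0 : y' - x' = y - x := by
    have := congrArg List.length he
    rw [wd_length, wd_length] at this; omega
  refine ⟨per_of_window (a := x) hw h fun t h3 h4 => ?_, h0⟩
  have h5 : (t - x).toNat < (wd ω x y).length := by rw [wd_length]; omega
  have h6 : (wd ω x' y')[(t - x).toNat]'(by rw [he]; exact h5) = (wd ω x y)[(t - x).toNat] := by
    simp only [he]
  rw [wd_getElem, wd_getElem] at h6
  convert h6 using 2 <;> omega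

theorem lper_glue {q₁ q₂ a x y₁ y₂ : ℤ} (h1 : 0 < q₁) (hq : 0 ≤ q₂) (l1 : LPer ω q₁ a y₁)
    (l2 : LPer ω q₂ x y₂) (hl : x + q₁ + q₂ ≤ y₁) (hy : y₁ ≤ y₂) : LPer ω q₂ a y₂ := by
  have key : ∀ n : ℕ, ∀ t, a ≤ t → x - n ≤ t → t + q₂ < y₂ → ω (t + q₂) = ω t := by
    intro n
    induction n with
    | zero => intro t _ h3 h4; exact l2 t (by omega) h4
    | succ n ih =>
      intro t h2 h3 h4
      by_cases hx : x ≤ t
      · exact l2 t hx h4
      · have e1 := l1 t h2 (by omega)
        have e2 := l1 (t + q₂) (by omega) (by omega)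
        have e3 := ih (t + q₁) (by omega) (by omega) (by omega)
        rw [← e1, ← e2, ← e3]; congr 1; ring
  intro t h2 h4
  exact key (x - t).toNat t h2 (by omega) h4

theorem lper_glue' {q a x y₁ y₂ : ℤ} (l1 : LPer ω q a y₁)
    (l2 : LPer ω q x y₂) (hl : x + q ≤ y₁) : LPer ω q a y₂ := by
  intro t h2 h4
  by_cases hx : x ≤ t
  · exact l2 t hx h4
  · exact l1 t h2 (by omega)

theorem lper_of_prefix {x y : ℤ} {q : ℕ} (hxy : x + q ≤ y)
    (h : (wd ω x y).drop q <+: wd ω x y) : LPer ω q x y := by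
  intro t h1 h2
  rw [wd_drop q hxy] at h
  have h3 := eq_wd_of_prefix (by omega) h
  have h5 : (t - x).toNat < (wd ω (x + q) y).length := by rw [wd_length]; omega
  have h6 : (wd ω (x + q) y)[(t - x).toNat] =
      (wd ω x (x + (wd ω (x + q) y).length))[(t - x).toNat]'(by rw [← h3]; exact h5) := by
    simp only [← h3]
  rw [wd_getElem, wd_getElem] at h6
  convert h6 using 2 <;> omega

/-- A word with period `p` that begins with a long window is itself a window. -/
theorem eq_wd_of_period {x y : ℤ} {p : ℕ} {l : List ℕ} (hp : 0 < p) (h : Per ω p)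
    (hxy : x + p ≤ y) (h1 : wd ω x y <+: l) (h2 : l.drop p <+: l) :
    l = wd ω x (x + l.length) := by
  apply wd_ext (by ring)
  intro k
  induction k using Nat.strong_induction_on with
  | _ k ih =>
    intro hk
    by_cases hkp : k < p
    · have h3 : k < (wd ω x y).length := by rw [wd_length]; omega
      rw [← h1.getElem h3, wd_getElem]
    · have h3 : k - p < (l.drop p).length := by rw [List.length_drop]; omega
      have h4 := h2.getElem h3
      rw [List.getElem_drop, ih (k - p) (by omega)] at h4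
      have h5 : l[k] = l[p + (k - p)]'(by omega) := by congr 1; omega
      rw [h5, h4, ← h (x + (k - p : ℕ))]; congr 1; omega

/-- The periodic extension of a word. -/
theorem exists_ext {p : ℕ} {l : List ℕ} (hp : 0 < p) (hl : p ≤ l.length) (h2 : l.drop p <+: l) :
    ∃ ω : ℤ → ℕ, Per ω p ∧ l = wd ω 0 l.length ∧ ∀ t, ω t ∈ l := by
  have hb : ∀ t : ℤ, (t % p).toNat < l.length := fun t => by
    have h1 := Int.emod_nonneg t (b := p) (by omega)
    have h3 := Int.emod_lt_of_pos t (b := p) (by omega)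
    omega
  have hper : Per (fun t : ℤ => l[(t % p).toNat]'(hb t)) p := fun t => by simp
  refine ⟨fun t => l[(t % p).toNat]'(hb t), hper, ?_, fun t => List.getElem_mem _⟩
  have := eq_wd_of_period (x := 0) (y := p) (l := l) hp hper (by omega) ?_ h2
  · simpa using this
  · have e : l.take p = wd (fun t : ℤ => l[(t % p).toNat]'(hb t)) 0 p := by
      apply wd_ext
      · simp [hl]
      · intro k hk
        have hk' : k < p := by simp at hk; omega
        simp only [List.getElem_take, zero_add]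
        congr 1
        rw [Int.emod_eq_of_lt (by omega) (by omega)]; simp
    rw [← e]; exact List.take_prefix _ _

theorem wd_drop_prefix {x y : ℤ} {p : ℕ} (h : Per ω p) (hxy : x + p ≤ y) :
    (wd ω x y).drop p <+: wd ω x y := by
  rw [wd_drop p hxy, wd_shift' h (x := x) (y := y - p) rfl (by ring)]
  exact wd_prefix (by omega) (by omega)

end Vale.Agent.P333
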